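import Vale.Agent.P097.H128.NZ.TC

/-! # P097 / NZ: the chord map is analytic; iterates; the canonical coefficients are analytic -/

set_option linter.all false

open Complex Metric Filter Topology Set

namespace Vale.Agent.P097.NZ

theorem snc_diff : Differentiable ℂ snc := by
  have h : DifferentiableOn ℂ (dslope Complex.sin 0) univ :=
    (differentiableOn_dslope (Filter.univ_mem)).2 Complex.differentiable_sin.differentiableOn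
  exact differentiableOn_univ.1 h

theorem snc_an (u : ℂ) : AnalyticAt ℂ snc u := snc_diff.analyticAt u

theorem snc_zero : snc 0 = 1 := by
  rw [snc, dslope_same]
  simp

theorem mul_snc (u : ℂ) : u * snc u = Complex.sin u := by
  rcases eq_or_ne u 0 with rfl | h
  · simp
  · rw [snc, dslope_of_ne _ h, slope_def_field, Complex.sin_zero, sub_zero, sub_zero]
    field_simp

variable {ρ : ℂ → ℂ} {z : ℂ}

theorem an11 (q : (ℂ × ℂ) × ℂ) : AnalyticAt ℂ (fun q : (ℂ × ℂ) × ℂ => q.1.1) q :=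
  analyticAt_fst.comp analyticAt_fst

theorem an12 (q : (ℂ × ℂ) × ℂ) : AnalyticAt ℂ (fun q : (ℂ × ℂ) × ℂ => q.1.2) q :=
  analyticAt_snd.comp analyticAt_fst

theorem kr_an (hρ : AnalyticAt ℂ ρ z) (v : ℂ) :
    AnalyticAt ℂ (fun q : (ℂ × ℂ) × ℂ => kr ρ q.1 q.2) ((z, 0), v) := by
  have h1 : AnalyticAt ℂ (fun q : (ℂ × ℂ) × ℂ => q.1.1 + q.1.2 * q.2) ((z, 0), v) :=
    (an11 _).add ((an12 _).mul analyticAt_snd)
  have h2 : AnalyticAt ℂ (fun q : (ℂ × ℂ) × ℂ => q.1.2 * (q.2 - 1)) ((z, 0), v) :=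
    (an12 _).mul (analyticAt_snd.sub analyticAt_const)
  exact (hρ.comp_of_eq h1 (by simp)).mul ((snc_an _).comp_of_eq h2 rfl)

theorem kr_axis (v : ℂ) : kr ρ (z, 0) v = ρ z := by
  simp [kr, snc_zero]

/-- the root function of the chord map -/
noncomputable def rt (ρ : ℂ → ℂ) (p : ℂ × ℂ) : ℂ := root (kr ρ p)

theorem rt_an (A : RootA) (hρ : AnalyticAt ℂ ρ z) (h0 : ρ z ≠ 0) : AnalyticAt ℂ (rt ρ) (z, 0) :=
  (A (kr ρ) (z, 0) (ρ z) h0 (fun v _ => kr_an hρ v) (fun v _ => kr_axis v)).1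

theorem rt_axis (A : RootA) (hρ : AnalyticAt ℂ ρ z) (h0 : ρ z ≠ 0) : rt ρ (z, 0) = 2 :=
  (A (kr ρ) (z, 0) (ρ z) h0 (fun v _ => kr_an hρ v) (fun v _ => kr_axis v)).2.1

theorem rt_spec (A : RootA) (hρ : AnalyticAt ℂ ρ z) (h0 : ρ z ≠ 0) :
    ∀ᶠ p in 𝓝 ((z, 0) : ℂ × ℂ), rt ρ p ∈ ball (2 : ℂ) (1 / 4) ∧ Kint (kr ρ p) (rt ρ p) = 0 ∧
      ∀ x ∈ ball (2 : ℂ) (1 / 4), Kint (kr ρ p) x = 0 → x = rt ρ p :=
  (A (kr ρ) (z, 0) (ρ z) h0 (fun v _ => kr_an hρ v) (fun v _ => kr_axis v)).2.2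

theorem TT_eq (p : ℂ × ℂ) : TT ρ p = (p.1 + p.2 * rt ρ p, p.2 * (rt ρ p - 1)) := rfl

theorem TT_an (A : RootA) (hρ : AnalyticAt ℂ ρ z) (h0 : ρ z ≠ 0) : AnalyticAt ℂ (TT ρ) (z, 0) := by
  have h1 := rt_an A hρ h0
  have h2 : AnalyticAt ℂ (fun p : ℂ × ℂ => p.1) (z, 0) := analyticAt_fst
  have h3 : AnalyticAt ℂ (fun p : ℂ × ℂ => p.2) (z, 0) := analyticAt_snd
  exact (h2.add (h3.mul h1)).prod (h3.mul (h1.sub analyticAt_const))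

theorem TT_axis (z : ℂ) : TT ρ (z, 0) = (z, 0) := by
  simp [TT]

theorem TT_tendsto (A : RootA) (hρ : AnalyticAt ℂ ρ z) (h0 : ρ z ≠ 0) :
    Tendsto (TT ρ) (𝓝 ((z, 0) : ℂ × ℂ)) (𝓝 (z, 0)) := by
  have := (TT_an A hρ h0).continuousAt.tendsto
  rwa [TT_axis] at this

theorem rt_lip (A : RootA) (hρ : AnalyticAt ℂ ρ z) (h0 : ρ z ≠ 0) :
    ∃ M r : ℝ, 0 ≤ M ∧ 0 < r ∧ ∀ z' ∈ ball z r, ∀ δ ∈ ball (0 : ℂ) r,
      ‖rt ρ (z', δ) - 2‖ ≤ M * ‖δ‖ := by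
  have h1 := (rt_an A hρ h0).hasStrictFDerivAt
  obtain ⟨K, s, hs, hK⟩ := h1.exists_lipschitzOnWith
  have h2 : ∀ᶠ p in 𝓝 ((z, 0) : ℂ × ℂ), p ∈ s := hs
  have h3 : ∀ᶠ z' in 𝓝 z, rt ρ (z', 0) = 2 := by
    have h4 : ∀ᶠ z' in 𝓝 z, ρ z' ≠ 0 := hρ.continuousAt.eventually_ne h0
    filter_upwards [hρ.eventually_analyticAt, h4] with z' h5 h6
    exact rt_axis A h5 h6
  obtain ⟨r, hr, h4⟩ := exists_polydisc h2
  obtain ⟨r', hr', h5⟩ := Metric.eventually_nhds_iff_ball.1 h3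
  refine ⟨K, min r r', K.2, lt_min hr hr', fun z' hz' δ hδ => ?_⟩
  have h6 := hK.dist_le_mul (z', δ) (h4 z' (ball_subset_ball (min_le_left _ _) hz') δ
    (ball_subset_ball (min_le_left _ _) hδ)) (z', 0)
    (h4 z' (ball_subset_ball (min_le_left _ _) hz') 0 (mem_ball_self hr))
  rw [h5 z' (ball_subset_ball (min_le_right _ _) hz'), dist_eq_norm, dist_eq_norm] at h6
  have h7 : ‖((z', δ) : ℂ × ℂ) - (z', 0)‖ = ‖δ‖ := by
    simp [Prod.norm_def]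
  rw [h7] at h6
  exact h6

/-- `T = (z + 2 δ + O(δ²), δ + O(δ²))` -/
theorem TT_bd (A : RootA) (hρ : AnalyticAt ℂ ρ z) (h0 : ρ z ≠ 0) :
    ∃ M r : ℝ, 0 ≤ M ∧ 0 < r ∧ ∀ z' ∈ ball z r, ∀ δ ∈ ball (0 : ℂ) r,
      ‖(TT ρ (z', δ)).1 - (z' + 2 * δ)‖ ≤ M * ‖δ‖ ^ 2 ∧
      ‖(TT ρ (z', δ)).2 - δ‖ ≤ M * ‖δ‖ ^ 2 := by
  obtain ⟨M, r, hM, hr, h⟩ := rt_lip A hρ h0
  refine ⟨M, r, hM, hr, fun z' hz' δ hδ => ?_⟩
  have h1 := h z' hz' δ hδ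
  constructor
  · rw [TT_eq]
    have : z' + δ * rt ρ (z', δ) - (z' + 2 * δ) = δ * (rt ρ (z', δ) - 2) := by ring
    simp only [this, norm_mul]
    calc ‖δ‖ * ‖rt ρ (z', δ) - 2‖ ≤ ‖δ‖ * (M * ‖δ‖) := by gcongr
      _ = M * ‖δ‖ ^ 2 := by ring
  · rw [TT_eq]
    have : δ * (rt ρ (z', δ) - 1) - δ = δ * (rt ρ (z', δ) - 2) := by ring
    simp only [this, norm_mul]
    calc ‖δ‖ * ‖rt ρ (z', δ) - 2‖ ≤ ‖δ‖ * (M * ‖δ‖) := by gcongr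
      _ = M * ‖δ‖ ^ 2 := by ring

theorem iter_axis (z : ℂ) (k : ℕ) : (TT ρ)^[k] (z, 0) = (z, 0) := by
  induction k with
  | zero => rfl
  | succ k ih => rw [Function.iterate_succ', Function.comp_apply, ih, TT_axis]

theorem iter_an (A : RootA) (hρ : AnalyticAt ℂ ρ z) (h0 : ρ z ≠ 0) (k : ℕ) :
    AnalyticAt ℂ (TT ρ)^[k] (z, 0) := by
  induction k with
  | zero => exact analyticAt_id
  | succ k ih =>
    rw [Function.iterate_succ']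
    exact (TT_an A hρ h0).comp_of_eq ih (iter_axis z k)

theorem fst_an {F : ℂ × ℂ → ℂ × ℂ} {p : ℂ × ℂ} (h : AnalyticAt ℂ F p) :
    AnalyticAt ℂ (fun q => (F q).1) p :=
  ((ContinuousLinearMap.fst ℂ ℂ ℂ).analyticAt _).comp h

theorem snd_an {F : ℂ × ℂ → ℂ × ℂ} {p : ℂ × ℂ} (h : AnalyticAt ℂ F p) :
    AnalyticAt ℂ (fun q => (F q).2) p :=
  ((ContinuousLinearMap.snd ℂ ℂ ℂ).analyticAt _).comp h

theorem Dk_an_of {S : ℂ × ℂ → ℂ × ℂ} {p : ℂ × ℂ} (h : ∀ k, AnalyticAt ℂ (fun q => (S^[k] q).1) p)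
    (m : ℕ) : AnalyticAt ℂ (Dk S m) p := by
  unfold Dk
  refine Finset.analyticAt_fun_sum _ fun n _ => ?_
  refine analyticAt_const.mul ?_
  refine Finset.analyticAt_fun_sum _ fun k _ => ?_
  exact analyticAt_const.mul (h k)

theorem Dk_an (A : RootA) (hρ : AnalyticAt ℂ ρ z) (h0 : ρ z ≠ 0) (m : ℕ) :
    AnalyticAt ℂ (Dk (TT ρ) m) (z, 0) :=
  Dk_an_of (fun k => fst_an (iter_an A hρ h0 k)) m

theorem Ik_an (A : RootA) (hρ : AnalyticAt ℂ ρ z) (h0 : ρ z ≠ 0) (k : ℕ) :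
    AnalyticAt ℂ (Ik ρ k) z := by
  have h1 : AnalyticAt ℂ (fun p : ℂ × ℂ => Complex.sin p.2 * Dk (TT ρ) k p) (z, 0) := by
    refine AnalyticAt.mul ?_ (Dk_an A hρ h0 k)
    have h2 : AnalyticAt ℂ (fun p : ℂ × ℂ => p.2) (z, 0) := analyticAt_snd
    exact Complex.analyticAt_sin.comp h2
  exact (hρ.mul (analyticAt_tc h1 (k - 1))).div_const

theorem eventually_Ik_an (A : RootA) (hρ : AnalyticAt ℂ ρ z) (h0 : ρ z ≠ 0) :
    ∀ᶠ z' in 𝓝 z, ∀ k, AnalyticAt ℂ (Ik ρ k) z' := by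
  filter_upwards [hρ.eventually_analyticAt, hρ.continuousAt.eventually_ne h0] with z' h1 h2 k
  exact Ik_an A h1 h2 k

end Vale.Agent.P097.NZ
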