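import Mathlib

/-! # P097 / program NZ: `rho = h + h''` has no zero in any domain of continuation.
Definitions and interfaces.  Owner: helper128.  See the claim note of helper128 (problem P097). -/

set_option linter.all false

open Complex Metric Filter Topology Set

namespace Vale.Agent.P097.NZ

/-! ## 1. Taylor coefficients in the second variable -/

/-- `k`-th Taylor coefficient of `δ ↦ f (z, δ)` at `δ = 0` -/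
noncomputable def tc (f : ℂ × ℂ → ℂ) (k : ℕ) (z : ℂ) : ℂ :=
  iteratedDeriv k (fun δ : ℂ => f (z, δ)) 0 / (k.factorial : ℂ)

/-- the series with coefficients `u k` -/
noncomputable def Sm (u : ℕ → ℂ → ℂ) (p : ℂ × ℂ) : ℂ := ∑' k : ℕ, u k p.1 * p.2 ^ k

/-- the coefficients are geometrically bounded near `z` -/
def GeoBd (u : ℕ → ℂ → ℂ) (z : ℂ) : Prop :=
  ∃ C B r : ℝ, 0 < B ∧ 0 < r ∧ ∀ z' ∈ ball z r, ∀ k : ℕ, ‖u k z'‖ ≤ C * B ^ k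

/-- the (odd) series `Sm u` converges near `(z, 0)` and is invariant under `S` -/
structure Good (u : ℕ → ℂ → ℂ) (S : ℂ × ℂ → ℂ × ℂ) (z : ℂ) : Prop where
  hol : ∀ᶠ z' in 𝓝 z, ∀ k : ℕ, AnalyticAt ℂ (u k) z'
  bd : GeoBd u z
  inv : ∀ᶠ p in 𝓝 ((z, 0) : ℂ × ℂ), Sm u (S p) = Sm u p
  odd : ∀ᶠ z' in 𝓝 z, ∀ k : ℕ, Even k → u k z' = 0

/-! ## 2. The chord map -/

/-- `sin u / u` -/
noncomputable def snc (u : ℂ) : ℂ := dslope Complex.sin 0 u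

/-- `∫_0^x K(v) (v - 1) dv` -/
noncomputable def Kint (K : ℂ → ℂ) (x : ℂ) : ℂ :=
  ∫ s in (0 : ℝ)..1, x * (K (s * x) * (s * x - 1))

open Classical in
/-- the root near `2` of `x ↦ ∫_0^x K(v) (v - 1) dv` -/
noncomputable def root (K : ℂ → ℂ) : ℂ :=
  if h : ∃ x, x ∈ ball (2 : ℂ) (1 / 4) ∧ Kint K x = 0 then h.choose else 2

/-- kernel of the chord equation at angle `p.1` with incidence angle `p.2` -/
noncomputable def kr (ρ : ℂ → ℂ) (p : ℂ × ℂ) (v : ℂ) : ℂ :=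
  ρ (p.1 + p.2 * v) * snc (p.2 * (v - 1))

/-- the chord map `(ψ, δ) ↦ (ψ + δ x, δ (x - 1))` (billiard map of the curve with radius of
curvature `ρ`) -/
noncomputable def TT (ρ : ℂ → ℂ) (p : ℂ × ℂ) : ℂ × ℂ :=
  (p.1 + p.2 * root (kr ρ p), p.2 * (root (kr ρ p) - 1))

/-- kernel of the chord equation near an end `ψ = ψ₀ + ξ ^ N`, `ρ = ξ ^ k R ξ` (`σ = k / N`), in
the coordinates `ξ`, `η` with `δ = η ξ ^ N` -/
noncomputable def ke (N : ℕ) (σ : ℂ) (R : ℂ → ℂ) (p : ℂ × ℂ) (v : ℂ) : ℂ :=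
  (1 + p.2 * v) ^ σ * R (p.1 * (1 + p.2 * v) ^ (1 / (N : ℂ))) * snc (p.2 * p.1 ^ N * (v - 1))

/-- the chord map in the coordinates `(ξ, η)` -/
noncomputable def Te (N : ℕ) (σ : ℂ) (R : ℂ → ℂ) (p : ℂ × ℂ) : ℂ × ℂ :=
  (p.1 * (1 + p.2 * root (ke N σ R p)) ^ (1 / (N : ℂ)),
    p.2 * (root (ke N σ R p) - 1) / (1 + p.2 * root (ke N σ R p)))

/-! ## 3. The canonical coefficients -/

/-- approximation of order `m` of the first component of the logarithm of the map `S` (Newton's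
formula `log (1 + Δ)`) -/
noncomputable def Dk (S : ℂ × ℂ → ℂ × ℂ) (m : ℕ) (p : ℂ × ℂ) : ℂ :=
  ∑ n ∈ Finset.Icc 1 m, (-1 : ℂ) ^ (n + 1) / n *
    ∑ k ∈ Finset.range (n + 1), (-1 : ℂ) ^ (n - k) * (n.choose k : ℂ) * (S^[k] p).1

/-- the canonical coefficients of the invariant function `I = ∫_0^δ ρ sin(u) V du` -/
noncomputable def Ik (ρ : ℂ → ℂ) (k : ℕ) (z : ℂ) : ℂ :=
  ρ z * tc (fun p => Complex.sin p.2 * Dk (TT ρ) k p) (k - 1) z / (k : ℂ)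

/-! ## 4. The packages -/

/-- NZ-A: analyticity of the root -/
def RootA : Prop := ∀ (K : ℂ × ℂ → ℂ → ℂ) (p₀ : ℂ × ℂ) (c : ℂ), c ≠ 0 →
  (∀ v ∈ closedBall (0 : ℂ) 3, AnalyticAt ℂ (fun q : (ℂ × ℂ) × ℂ => K q.1 q.2) (p₀, v)) →
  (∀ v ∈ closedBall (0 : ℂ) 3, K p₀ v = c) →
  AnalyticAt ℂ (fun p => root (K p)) p₀ ∧ root (K p₀) = 2 ∧
    ∀ᶠ p in 𝓝 p₀, root (K p) ∈ ball (2 : ℂ) (1 / 4) ∧ Kint (K p) (root (K p)) = 0 ∧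
      ∀ x ∈ ball (2 : ℂ) (1 / 4), Kint (K p) x = 0 → x = root (K p)

/-- NZ-G: a zero free periodic entire function of finite order, real on the reals, is constant -/
def FinOrd : Prop := ∀ (R : ℂ → ℂ) (C : ℝ) (k : ℕ), Differentiable ℂ R → (∀ z, R z ≠ 0) →
  (∀ z, R (z + 2 * Real.pi) = R z) → (∀ x : ℝ, (R x).im = 0) →
  (∀ z, ‖R z‖ ≤ Real.exp (C * (1 + ‖z‖ ^ k))) → ∃ c : ℝ, ∀ z, R z = c

/-- NZ-D2: goodness propagates (chord map), touching disc form -/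
def PropT : Prop := ∀ (ρ : ℂ → ℂ) (z₀ c : ℂ), AnalyticAt ℂ ρ z₀ → ρ z₀ ≠ 0 → c ≠ z₀ →
  (∀ z ∈ ball c (dist c z₀), Good (Ik ρ) (TT ρ) z) → Good (Ik ρ) (TT ρ) z₀

/-- NZ-D3: goodness propagates inside a disc of regularity -/
def PropB : Prop := ∀ (ρ : ℂ → ℂ) (z₀ z₁ : ℂ) (r : ℝ), (∀ z ∈ ball z₀ r, AnalyticAt ℂ ρ z ∧ ρ z ≠ 0) →
  z₁ ∈ ball z₀ r → Good (Ik ρ) (TT ρ) z₁ → ∀ z ∈ ball z₀ r, Good (Ik ρ) (TT ρ) z

/-- NZ-E: the law at a finitely branched end `ψ = ψ₀ + ξ ^ N`, `ρ = ξ ^ k R ξ` all of whose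
neighbouring points are good -/
def EndE : Prop := ∀ (N : ℕ) (k : ℤ) (R : ℂ → ℂ) (ψ₀ : ℂ) (ε : ℝ), 0 < ε → 1 ≤ N →
  DifferentiableOn ℂ R (ball 0 ε) → (∀ ξ ∈ ball (0 : ℂ) ε, R ξ ≠ 0) →
  (∀ ξ ∈ ball (0 : ℂ) ε, ξ ≠ 0 → ∀ ρ : ℂ → ℂ,
    (∀ᶠ ξ' in 𝓝 ξ, ρ (ψ₀ + ξ' ^ N) = ξ' ^ k * R ξ') → Good (Ik ρ) (TT ρ) (ψ₀ + ξ ^ N)) →
  ∃ E : ℂ → ℂ, AnalyticAt ℂ E 0 ∧ (∀ᶠ y in 𝓝 (0 : ℂ), E (-y) = -E y) ∧
    (∃ c : ℂ, c ≠ 0 ∧ (fun y : ℂ => E y - c * y ^ 3) =O[𝓝 0] fun y : ℂ => y ^ 5) ∧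
    ∀ᶠ y in 𝓝 (0 : ℂ),
      (1 + y * root (fun v => (1 + y * v) ^ ((k : ℂ) / N))) ^ ((k : ℂ) / N + 3) *
        E (y * (root (fun v => (1 + y * v) ^ ((k : ℂ) / N)) - 1) /
          (1 + y * root (fun v => (1 + y * v) ^ ((k : ℂ) / N)))) = E y

end Vale.Agent.P097.NZ
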