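import Vale.Agent.P097.H128.NZ.Defs
import Vale.Agent.P097.H402.Rat.Defs

/-! # P097 / program NZ: interfaces of the real start (NZ-C) and of the kill (NZ-F) -/

set_option linter.all false

open Complex Metric Filter Topology Set
open scoped ComplexConjugate

namespace Vale.Agent.P097.NZ

open Vale.Agent.P097.TA Vale.Agent.P097.H202 Vale.Agent.P097.H402.Rat

/-- NZ-C: a table with leaves is good at every real angle -/
def RealStart : Prop := ∀ (R : ℂ → ℂ) (δ : ℝ) (E ξ X : ℂ → ℂ → ℂ), Pen R δ E ξ X →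
  ∀ x : ℝ, Good (Ik R) (TT R) x

/-- NZ-F: the law at an end gives RAT's `LawB` -/
def LawEB : Prop := ∀ (σ : ℝ) (E : ℂ → ℂ), AnalyticAt ℂ E 0 →
  (∀ᶠ y in 𝓝 (0 : ℂ), E (-y) = -E y) →
  (∃ c : ℂ, c ≠ 0 ∧ (fun y : ℂ => E y - c * y ^ 3) =O[𝓝 0] fun y : ℂ => y ^ 5) →
  (∀ᶠ y in 𝓝 (0 : ℂ),
    (1 + y * root (fun v => (1 + y * v) ^ (σ : ℂ))) ^ ((σ : ℂ) + 3) *
      E (y * (root (fun v => (1 + y * v) ^ (σ : ℂ)) - 1) /
        (1 + y * root (fun v => (1 + y * v) ^ (σ : ℂ)))) = E y) →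
  ∃ f : ℂ → ℂ, LawB σ f

end Vale.Agent.P097.NZ
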