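import Vale.Agent.P097.H128.NZ.Defs2

/-! # P097 / program NZ: interfaces of the assembly -/

set_option linter.all false

open Complex Metric Filter Topology Set
open scoped ComplexConjugate

namespace Vale.Agent.P097.NZ

open Vale.Agent.P097.TA Vale.Agent.P097.H202 Vale.Agent.P097.H402.Rat

/-- the germ of `ρ` at `π u` obtained from the function `g` on the surface (`g = ρ ∘ π` near `u`)
is good -/
def GoodAt (π g : ℂ → ℂ) (u : ℂ) : Prop :=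
  ∀ ρ : ℂ → ℂ, (∀ᶠ u' in 𝓝 u, ρ (π u') = g u') → Good (Ik ρ) (TT ρ) (π u)

/-- NZ-H1: goodness propagates over a connected piece of the surface of `ρ` -/
def ContGood : Prop := ∀ (U : Set ℂ) (π g : ℂ → ℂ) (u₀ : ℂ), IsOpen U → IsPreconnected U →
  DifferentiableOn ℂ π U → DifferentiableOn ℂ g U → (∀ u ∈ U, deriv π u ≠ 0 ∧ g u ≠ 0) →
  u₀ ∈ U → GoodAt π g u₀ → ∀ u ∈ U, GoodAt π g u

/-- analytic continuation of the radius of curvature `h + h''` of the table `h`: `U` is a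
connected piece of the surface, `π` the angle, `g` the continued radius of curvature -/
structure Cont (h : ℝ → ℝ) (U : Set ℂ) (π g : ℂ → ℂ) : Prop where
  hU : IsOpen U
  conn : IsPreconnected U
  dπ : DifferentiableOn ℂ π U
  dg : DifferentiableOn ℂ g U
  ne : ∀ u ∈ U, deriv π u ≠ 0 ∧ g u ≠ 0
  start : ∃ u₀ ∈ U, ∃ x₀ : ℝ, π u₀ = x₀ ∧
    ∀ᶠ u in 𝓝 u₀, ∀ x : ℝ, π u = x → g u = ((h x + deriv (deriv h) x : ℝ) : ℂ)

/-- NZ-H2: every finitely branched end of the surface has exponent `0`, `-3/2` or `≤ -2` -/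
def NZBranch : Prop := ∀ (h : ℝ → ℝ) (η : ℝ), 0 < η → SmoothTable h → Collar h η →
  ∀ (U : Set ℂ) (π g : ℂ → ℂ), Cont h U π g →
  ∀ (N : ℕ) (k : ℤ) (R : ℂ → ℂ) (ψ₀ : ℂ) (ε : ℝ), 1 ≤ N → 0 < ε →
    DifferentiableOn ℂ R (ball 0 ε) → R 0 ≠ 0 →
    (∀ ξ ∈ ball (0 : ℂ) ε, ξ ≠ 0 → ξ ∈ U ∧ π ξ = ψ₀ + ξ ^ N ∧ g ξ = ξ ^ k * R ξ) →
    k = 0 ∨ 2 * k = -3 * N ∨ k ≤ -2 * N

/-- NZ-H2: no zero of the radius of curvature in a domain of continuation -/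
def NZMain : Prop := ∀ (h : ℝ → ℝ) (η : ℝ), 0 < η → SmoothTable h → Collar h η →
  ∀ (D : Set ℂ) (H : ℂ → ℂ) (x₀ : ℝ), IsOpen D → IsPreconnected D → (x₀ : ℂ) ∈ D →
    DifferentiableOn ℂ H D → (∀ᶠ x : ℝ in 𝓝 x₀, H x = h x) →
    ∀ z ∈ D, H z + deriv (deriv H) z ≠ 0

/-- NZ-H3: a support function which extends to an entire function of finite order -/
def NZFin : Prop := ∀ (h : ℝ → ℝ) (η : ℝ), 0 < η → SmoothTable h → Collar h η →
  ∀ (H : ℂ → ℂ) (C : ℝ) (k : ℕ), Differentiable ℂ H → (∀ x : ℝ, H x = h x) →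
    (∀ z, ‖H z‖ ≤ Real.exp (C * (1 + ‖z‖ ^ k))) →
    ∃ r a b : ℝ, 0 < r ∧ ∀ x, h x = r + a * Real.cos x + b * Real.sin x

end Vale.Agent.P097.NZ
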