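import Vale.Agent.P097.H128.NZ.Chord

/-! # P097 / NZ: the chord map near a finitely branched end, coordinates `ξ, η` -/

set_option linter.all false

open Complex Metric Filter Topology Set

namespace Vale.Agent.P097.NZ

/-! ## congruence of roots -/

theorem Kint_congr {K K' : ℂ → ℂ} {c x : ℂ} (h : ∀ v ∈ closedBall (0 : ℂ) 3, K v = c * K' v)
    (hx : x ∈ ball (2 : ℂ) (1 / 4)) : Kint K x = c * Kint K' x := by
  have hx3 : ‖x‖ ≤ 3 := by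
    have h1 : ‖x - 2‖ < 1 / 4 := by simpa [dist_eq_norm] using hx
    have h2 : ‖x‖ ≤ ‖x - 2‖ + ‖(2 : ℂ)‖ := by simpa using norm_add_le (x - 2) 2
    have h3 : ‖(2 : ℂ)‖ = 2 := by simp
    linarith
  rw [Kint, Kint, ← intervalIntegral.integral_const_mul]
  refine intervalIntegral.integral_congr fun s hs => ?_
  rw [uIcc_of_le zero_le_one] at hs
  have h1 : (s : ℂ) * x ∈ closedBall (0 : ℂ) 3 := by
    rw [mem_closedBall_zero_iff, norm_mul, norm_real, Real.norm_eq_abs, abs_of_nonneg hs.1]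
    calc s * ‖x‖ ≤ 1 * 3 := by gcongr; exact hs.2
      _ = 3 := by norm_num
  show x * (K (s * x) * (s * x - 1)) = c * (x * (K' (s * x) * (s * x - 1)))
  rw [h _ h1]
  ring

open Classical in
theorem choose_congr {P Q : ℂ → Prop} (h : P = Q) :
    (if h : ∃ x, P x then h.choose else 2) = (if h : ∃ x, Q x then h.choose else (2 : ℂ)) := by
  subst h; rfl

theorem root_congr {K K' : ℂ → ℂ} {c : ℂ} (hc : c ≠ 0)
    (h : ∀ v ∈ closedBall (0 : ℂ) 3, K v = c * K' v) : root K = root K' := by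
  have h1 : (fun x => x ∈ ball (2 : ℂ) (1 / 4) ∧ Kint K x = 0) =
      fun x => x ∈ ball (2 : ℂ) (1 / 4) ∧ Kint K' x = 0 := by
    funext x
    refine propext ⟨fun hx => ⟨hx.1, ?_⟩, fun hx => ⟨hx.1, ?_⟩⟩
    · have := hx.2
      rw [Kint_congr h hx.1] at this
      exact (mul_eq_zero.1 this).resolve_left hc
    · rw [Kint_congr h hx.1, hx.2, mul_zero]
  exact choose_congr h1

/-! ## the maps near the end -/

variable {N : ℕ} {σ : ℂ} {R : ℂ → ℂ} {ξ : ℂ}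

/-- the root function near the end -/
noncomputable def re (N : ℕ) (σ : ℂ) (R : ℂ → ℂ) (p : ℂ × ℂ) : ℂ := root (ke N σ R p)

theorem ke_an (hR : AnalyticAt ℂ R ξ) (v : ℂ) :
    AnalyticAt ℂ (fun q : (ℂ × ℂ) × ℂ => ke N σ R q.1 q.2) ((ξ, 0), v) := by
  have h1 : AnalyticAt ℂ (fun q : (ℂ × ℂ) × ℂ => 1 + q.1.2 * q.2) ((ξ, 0), v) :=
    analyticAt_const.add ((an12 _).mul analyticAt_snd)
  have h2 : (1 : ℂ) + (((ξ, 0), v) : (ℂ × ℂ) × ℂ).1.2 * (((ξ, 0), v) : (ℂ × ℂ) × ℂ).2 ∈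
      slitPlane := by simp
  have h3 : ∀ s : ℂ, AnalyticAt ℂ (fun q : (ℂ × ℂ) × ℂ => (1 + q.1.2 * q.2) ^ s) ((ξ, 0), v) :=
    fun s => h1.cpow analyticAt_const h2
  have h4 : AnalyticAt ℂ (fun q : (ℂ × ℂ) × ℂ => q.1.1 * (1 + q.1.2 * q.2) ^ (1 / (N : ℂ)))
      ((ξ, 0), v) := (an11 _).mul (h3 _)
  have h5 : AnalyticAt ℂ (fun q : (ℂ × ℂ) × ℂ => q.1.2 * q.1.1 ^ N * (q.2 - 1)) ((ξ, 0), v) :=
    ((an12 _).mul ((an11 _).pow N)).mul (analyticAt_snd.sub analyticAt_const)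
  exact ((h3 σ).mul (hR.comp_of_eq h4 (by simp))).mul ((snc_an _).comp_of_eq h5 rfl)

theorem ke_axis (v : ℂ) : ke N σ R (ξ, 0) v = R ξ := by
  simp [ke, snc_zero]

theorem re_an (A : RootA) (hR : AnalyticAt ℂ R ξ) (h0 : R ξ ≠ 0) :
    AnalyticAt ℂ (re N σ R) (ξ, 0) :=
  (A (ke N σ R) (ξ, 0) (R ξ) h0 (fun v _ => ke_an hR v) (fun v _ => ke_axis v)).1

theorem re_axis (A : RootA) (hR : AnalyticAt ℂ R ξ) (h0 : R ξ ≠ 0) : re N σ R (ξ, 0) = 2 :=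
  (A (ke N σ R) (ξ, 0) (R ξ) h0 (fun v _ => ke_an hR v) (fun v _ => ke_axis v)).2.1

theorem Te_eq (p : ℂ × ℂ) : Te N σ R p = (p.1 * (1 + p.2 * re N σ R p) ^ (1 / (N : ℂ)),
    p.2 * (re N σ R p - 1) / (1 + p.2 * re N σ R p)) := rfl

/-- `r = 1 + η x` -/
noncomputable def rr (N : ℕ) (σ : ℂ) (R : ℂ → ℂ) (p : ℂ × ℂ) : ℂ := 1 + p.2 * re N σ R p

theorem rr_an (A : RootA) (hR : AnalyticAt ℂ R ξ) (h0 : R ξ ≠ 0) :
    AnalyticAt ℂ (rr N σ R) (ξ, 0) :=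
  analyticAt_const.add (analyticAt_snd.mul (re_an A hR h0))

theorem rr_axis : rr N σ R (ξ, 0) = 1 := by simp [rr]

theorem rr_cpow_an (A : RootA) (hR : AnalyticAt ℂ R ξ) (h0 : R ξ ≠ 0) (s : ℂ) :
    AnalyticAt ℂ (fun p => rr N σ R p ^ s) (ξ, 0) :=
  (rr_an A hR h0).cpow analyticAt_const (by rw [rr_axis]; simp)

theorem Te_an (A : RootA) (hR : AnalyticAt ℂ R ξ) (h0 : R ξ ≠ 0) :
    AnalyticAt ℂ (Te N σ R) (ξ, 0) := by
  have h1 := re_an (N := N) (σ := σ) A hR h0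
  have h2 := rr_an (N := N) (σ := σ) A hR h0
  refine AnalyticAt.prod (analyticAt_fst.mul (rr_cpow_an A hR h0 _)) ?_
  refine (analyticAt_snd.mul (h1.sub analyticAt_const)).div h2 ?_
  simp

theorem Te_axis (ξ : ℂ) : Te N σ R (ξ, 0) = (ξ, 0) := by
  simp [Te]

theorem Te_iter_axis (ξ : ℂ) (k : ℕ) : (Te N σ R)^[k] (ξ, 0) = (ξ, 0) := by
  induction k with
  | zero => rfl
  | succ k ih => rw [Function.iterate_succ', Function.comp_apply, ih, Te_axis]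

theorem Te_iter_an (A : RootA) (hR : AnalyticAt ℂ R ξ) (h0 : R ξ ≠ 0) (k : ℕ) :
    AnalyticAt ℂ (Te N σ R)^[k] (ξ, 0) := by
  induction k with
  | zero => exact analyticAt_id
  | succ k ih =>
    rw [Function.iterate_succ']
    exact (Te_an A hR h0).comp_of_eq ih (Te_iter_axis ξ k)

/-- `(ξ_j / ξ) ^ N` -/
noncomputable def ww (N : ℕ) (σ : ℂ) (R : ℂ → ℂ) : ℕ → ℂ × ℂ → ℂ
  | 0, _ => 1
  | j + 1, p => ww N σ R j p * rr N σ R ((Te N σ R)^[j] p)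

theorem ww_an (A : RootA) (hR : AnalyticAt ℂ R ξ) (h0 : R ξ ≠ 0) (j : ℕ) :
    AnalyticAt ℂ (ww N σ R j) (ξ, 0) := by
  induction j with
  | zero => exact analyticAt_const
  | succ j ih =>
    exact ih.mul ((rr_an A hR h0).comp_of_eq (Te_iter_an A hR h0 j) (Te_iter_axis ξ j))

theorem ww_axis (j : ℕ) : ww N σ R j (ξ, 0) = 1 := by
  induction j with
  | zero => rfl
  | succ j ih => rw [ww, ih, Te_iter_axis, rr_axis, one_mul]

theorem cpow_root_pow {w : ℂ} (hN : 1 ≤ N) : (w ^ (1 / (N : ℂ))) ^ N = w := by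
  rw [one_div]
  exact Complex.cpow_nat_inv_pow w (by omega)

/-- `ξ_j ^ N = ξ ^ N w_j` -/
theorem iter_fst_pow (hN : 1 ≤ N) (j : ℕ) (p : ℂ × ℂ) :
    ((Te N σ R)^[j] p).1 ^ N = p.1 ^ N * ww N σ R j p := by
  induction j with
  | zero => simp [ww]
  | succ j ih =>
    rw [Function.iterate_succ', Function.comp_apply, Te_eq, mul_pow, ih, ww, cpow_root_pow hN, rr]
    ring

/-- the coordinate change -/
noncomputable def PP (N : ℕ) (ψ₀ : ℂ) (p : ℂ × ℂ) : ℂ × ℂ := (ψ₀ + p.1 ^ N, p.2 * p.1 ^ N)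

/-- the semi-conjugacy with the chord map near a regular point -/
structure Conj (N : ℕ) (k : ℤ) (R : ℂ → ℂ) (ψ₀ ξ₀ : ℂ) (ρ : ℂ → ℂ) : Prop where
  hN : 1 ≤ N
  hξ : ξ₀ ≠ 0
  hR : AnalyticAt ℂ R ξ₀
  hR0 : R ξ₀ ≠ 0
  hρ : ∀ᶠ ξ in 𝓝 ξ₀, ρ (ψ₀ + ξ ^ N) = ξ ^ k * R ξ

variable {k : ℤ} {ψ₀ ξ₀ : ℂ} {ρ : ℂ → ℂ}

/-- smallness: `(ξ, η)` near `(ξ₀, 0)` and `|v| ≤ 3` -/
theorem Conj.kr_eq (C : Conj N k R ψ₀ ξ₀ ρ) : ∀ᶠ p in 𝓝 ((ξ₀, 0) : ℂ × ℂ),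
    ∀ v ∈ closedBall (0 : ℂ) 3, kr ρ (PP N ψ₀ p) v = p.1 ^ k * ke N (k / N) R p v := by
  have hN0 : (N : ℂ) ≠ 0 := by
    have := C.hN
    exact_mod_cast (by omega : N ≠ 0)
  have hK : IsCompact (closedBall (0 : ℂ) 3) := isCompact_closedBall _ _
  -- the function g p v = ξ (1 + η v)^(1/N) tends to ξ₀ uniformly
  have h1 : ∀ v ∈ closedBall (0 : ℂ) 3, ∀ᶠ q in 𝓝 (((ξ₀, 0) : ℂ × ℂ), v),
      (1 + q.1.2 * q.2 ∈ slitPlane ∧ ‖q.1.2 * q.2‖ < 1 ∧ q.1.1 ≠ 0) ∧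
        ρ (ψ₀ + (q.1.1 * (1 + q.1.2 * q.2) ^ (1 / (N : ℂ))) ^ N) =
          (q.1.1 * (1 + q.1.2 * q.2) ^ (1 / (N : ℂ))) ^ k *
            R (q.1.1 * (1 + q.1.2 * q.2) ^ (1 / (N : ℂ))) := by
    intro v hv
    have e1 : Continuous fun q : (ℂ × ℂ) × ℂ => 1 + q.1.2 * q.2 := by fun_prop
    have e2 : Continuous fun q : (ℂ × ℂ) × ℂ => ‖q.1.2 * q.2‖ := by fun_prop
    have e3 : Continuous fun q : (ℂ × ℂ) × ℂ => q.1.1 := by fun_prop
    have f1 : ∀ᶠ q in 𝓝 (((ξ₀, 0) : ℂ × ℂ), v), 1 + q.1.2 * q.2 ∈ slitPlane :=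
      e1.continuousAt.eventually (isOpen_slitPlane.mem_nhds (by simp))
    have f2 : ∀ᶠ q in 𝓝 (((ξ₀, 0) : ℂ × ℂ), v), ‖q.1.2 * q.2‖ < 1 :=
      e2.continuousAt.eventually (gt_mem_nhds (by simp))
    have f3 : ∀ᶠ q in 𝓝 (((ξ₀, 0) : ℂ × ℂ), v), q.1.1 ≠ 0 :=
      e3.continuousAt.eventually_ne C.hξ
    have e4 : ContinuousAt (fun q : (ℂ × ℂ) × ℂ => q.1.1 * (1 + q.1.2 * q.2) ^ (1 / (N : ℂ)))
        (((ξ₀, 0) : ℂ × ℂ), v) := by
      refine e3.continuousAt.mul ?_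
      exact e1.continuousAt.cpow continuousAt_const (by simp)
    have e5 : Tendsto (fun q : (ℂ × ℂ) × ℂ => q.1.1 * (1 + q.1.2 * q.2) ^ (1 / (N : ℂ)))
        (𝓝 (((ξ₀, 0) : ℂ × ℂ), v)) (𝓝 ξ₀) := by
      have := e4.tendsto
      simpa using this
    filter_upwards [f1, f2, f3, e5.eventually C.hρ] with q g1 g2 g3 g4
    exact ⟨⟨g1, g2, g3⟩, g4⟩
  have h2 := hK.eventually_forall_of_forall_eventually (x₀ := ((ξ₀, 0) : ℂ × ℂ)) (P := fun p v =>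
      (1 + p.2 * v ∈ slitPlane ∧ ‖p.2 * v‖ < 1 ∧ p.1 ≠ 0) ∧
        ρ (ψ₀ + (p.1 * (1 + p.2 * v) ^ (1 / (N : ℂ))) ^ N) =
          (p.1 * (1 + p.2 * v) ^ (1 / (N : ℂ))) ^ k *
            R (p.1 * (1 + p.2 * v) ^ (1 / (N : ℂ)))) (fun v hv => h1 v hv)
  filter_upwards [h2] with p hp v hv
  obtain ⟨⟨g1, g2, g3⟩, g4⟩ := hp v hv
  have hne : 1 + p.2 * v ≠ 0 := slitPlane_ne_zero g1
  rw [mul_pow, cpow_root_pow C.hN] at g4
  have e1 : (PP N ψ₀ p).1 + (PP N ψ₀ p).2 * v = ψ₀ + p.1 ^ N * (1 + p.2 * v) := by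
    simp only [PP]; ring
  have e2 : (PP N ψ₀ p).2 * (v - 1) = p.2 * p.1 ^ N * (v - 1) := by simp only [PP]
  have e3 : (p.1 * (1 + p.2 * v) ^ (1 / (N : ℂ))) ^ k = p.1 ^ k * (1 + p.2 * v) ^ ((k : ℂ) / N) := by
    rw [mul_zpow, ← Complex.cpow_intCast ((1 + p.2 * v) ^ (1 / (N : ℂ))) k]
    congr 1
    have hlog : Complex.log ((1 + p.2 * v) ^ (1 / (N : ℂ))) = Complex.log (1 + p.2 * v) * (1 / N) := by
      rw [Complex.cpow_def_of_ne_zero hne]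
      have harg : |(Complex.log (1 + p.2 * v) * (1 / (N : ℂ))).im| < Real.pi := by
        have h5 : (Complex.log (1 + p.2 * v) * (1 / (N : ℂ))).im
            = (Complex.log (1 + p.2 * v)).im / N := by
          rw [show Complex.log (1 + p.2 * v) * (1 / (N : ℂ))
            = Complex.log (1 + p.2 * v) * ((1 / N : ℝ) : ℂ) by push_cast; ring, Complex.mul_im]
          simp
          ring
        rw [h5, abs_div, Complex.log_im]
        have h6 : |Complex.arg (1 + p.2 * v)| < Real.pi := by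
          rw [abs_lt]
          refine ⟨neg_pi_lt_arg _, lt_of_le_of_ne (arg_le_pi _) ?_⟩
          exact (mem_slitPlane_iff_arg.1 g1).1
        have h7 : (1 : ℝ) ≤ |(N : ℝ)| := by
          rw [abs_of_nonneg (by positivity)]
          exact_mod_cast C.hN
        calc |Complex.arg (1 + p.2 * v)| / |(N : ℝ)| ≤ |Complex.arg (1 + p.2 * v)| / 1 := by gcongr
          _ = |Complex.arg (1 + p.2 * v)| := div_one _
          _ < Real.pi := h6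
      rw [abs_lt] at harg
      exact Complex.log_exp harg.1 harg.2.le
    have hne2 : (1 + p.2 * v) ^ (1 / (N : ℂ)) ≠ 0 := by
      rw [Complex.cpow_def_of_ne_zero hne]; exact Complex.exp_ne_zero _
    rw [Complex.cpow_def_of_ne_zero hne2, hlog, Complex.cpow_def_of_ne_zero hne]
    congr 1
    ring
  rw [kr, e1, e2, g4, ke, e3]
  ring

theorem Conj.root_eq (C : Conj N k R ψ₀ ξ₀ ρ) : ∀ᶠ p in 𝓝 ((ξ₀, 0) : ℂ × ℂ),
    rt ρ (PP N ψ₀ p) = re N (k / N) R p := by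
  have h1 : ∀ᶠ p in 𝓝 ((ξ₀, 0) : ℂ × ℂ), p.1 ≠ 0 :=
    continuous_fst.continuousAt.eventually_ne C.hξ
  filter_upwards [C.kr_eq, h1] with p hp hp1
  exact root_congr (zpow_ne_zero k hp1) hp

theorem PP_axis : PP N ψ₀ (ξ, 0) = (ψ₀ + ξ ^ N, 0) := by simp [PP]

theorem PP_cont : Continuous (PP N ψ₀) := by
  unfold PP
  fun_prop

theorem PP_tendsto (ξ : ℂ) : Tendsto (PP N ψ₀) (𝓝 ((ξ, 0) : ℂ × ℂ)) (𝓝 (ψ₀ + ξ ^ N, 0)) := by
  have := (PP_cont (N := N) (ψ₀ := ψ₀)).tendsto (ξ, 0)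
  rwa [PP_axis] at this

/-- semi-conjugacy -/
theorem Conj.semi (A : RootA) (C : Conj N k R ψ₀ ξ₀ ρ) : ∀ᶠ p in 𝓝 ((ξ₀, 0) : ℂ × ℂ),
    TT ρ (PP N ψ₀ p) = PP N ψ₀ (Te N (k / N) R p) := by
  have h1 : ∀ᶠ p in 𝓝 ((ξ₀, 0) : ℂ × ℂ), rr N (k / N) R p ≠ 0 :=
    (rr_an A C.hR C.hR0).continuousAt.eventually_ne (by rw [rr_axis]; exact one_ne_zero)
  filter_upwards [C.root_eq, h1] with p hp hp1
  rw [TT_eq, hp, PP, Te_eq]
  simp only [PP]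
  rw [mul_pow, cpow_root_pow C.hN]
  rw [rr] at hp1
  refine Prod.ext ?_ ?_
  · show ψ₀ + p.1 ^ N + p.2 * p.1 ^ N * re N (k / N) R p
      = ψ₀ + p.1 ^ N * (1 + p.2 * re N (k / N) R p)
    ring
  · show p.2 * p.1 ^ N * (re N (k / N) R p - 1)
      = p.2 * (re N (k / N) R p - 1) / (1 + p.2 * re N (k / N) R p) *
        (p.1 ^ N * (1 + p.2 * re N (k / N) R p))
    field_simp

theorem Conj.semi_iter (A : RootA) (C : Conj N k R ψ₀ ξ₀ ρ) (j : ℕ) :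
    ∀ᶠ p in 𝓝 ((ξ₀, 0) : ℂ × ℂ),
      (TT ρ)^[j] (PP N ψ₀ p) = PP N ψ₀ ((Te N (k / N) R)^[j] p) := by
  induction j with
  | zero => exact Filter.Eventually.of_forall fun p => rfl
  | succ j ih =>
    have h1 : Tendsto ((Te N (k / N) R)^[j]) (𝓝 ((ξ₀, 0) : ℂ × ℂ)) (𝓝 (ξ₀, 0)) := by
      have := (Te_iter_an (N := N) (σ := (k / N : ℂ)) A C.hR C.hR0 j).continuousAt.tendsto
      rwa [Te_iter_axis] at this
    filter_upwards [ih, h1.eventually (C.semi A)] with p h2 h3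
    rw [Function.iterate_succ', Function.comp_apply, h2, h3, Function.iterate_succ',
      Function.comp_apply]

/-- Newton's formula applied to a sequence -/
noncomputable def NF (m : ℕ) (a : ℕ → ℂ) : ℂ :=
  ∑ n ∈ Finset.Icc 1 m, (-1 : ℂ) ^ (n + 1) / n *
    ∑ k ∈ Finset.range (n + 1), (-1 : ℂ) ^ (n - k) * (n.choose k : ℂ) * a k

theorem Dk_eq_NF {S : ℂ × ℂ → ℂ × ℂ} {m : ℕ} {p : ℂ × ℂ} :
    Dk S m p = NF m fun k => (S^[k] p).1 := rfl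

theorem NF_add (m : ℕ) (a b : ℕ → ℂ) : NF m (fun k => a k + b k) = NF m a + NF m b := by
  unfold NF
  rw [← Finset.sum_add_distrib]
  refine Finset.sum_congr rfl fun n _ => ?_
  rw [← mul_add, ← Finset.sum_add_distrib]
  congr 1
  exact Finset.sum_congr rfl fun k _ => by ring

theorem NF_mul (m : ℕ) (c : ℂ) (a : ℕ → ℂ) : NF m (fun k => c * a k) = c * NF m a := by
  unfold NF
  rw [Finset.mul_sum]
  refine Finset.sum_congr rfl fun n _ => ?_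
  rw [Finset.mul_sum, Finset.mul_sum, Finset.mul_sum]
  exact Finset.sum_congr rfl fun k _ => by ring

theorem NF_const (m : ℕ) (c : ℂ) : NF m (fun _ => c) = 0 := by
  unfold NF
  refine Finset.sum_eq_zero fun n hn => ?_
  have h1 : 1 ≤ n := (Finset.mem_Icc.1 hn).1
  have h2 : ∑ k ∈ Finset.range (n + 1), (-1 : ℂ) ^ (n - k) * (n.choose k : ℂ) * c =
      (∑ k ∈ Finset.range (n + 1), (1 : ℂ) ^ k * (-1) ^ (n - k) * (n.choose k : ℂ)) * c := by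
    rw [Finset.sum_mul]
    exact Finset.sum_congr rfl fun k _ => by rw [one_pow, one_mul]
  rw [h2, ← add_pow]
  simp only [add_neg_cancel]
  rw [zero_pow (by omega)]
  simp

/-- the reduced approximate logarithm -/
noncomputable def Dh (N : ℕ) (σ : ℂ) (R : ℂ → ℂ) (m : ℕ) (p : ℂ × ℂ) : ℂ :=
  NF m fun j => ww N σ R j p

theorem Dh_an (A : RootA) (hR : AnalyticAt ℂ R ξ) (h0 : R ξ ≠ 0) (m : ℕ) :
    AnalyticAt ℂ (Dh N σ R m) (ξ, 0) := by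
  unfold Dh NF
  refine Finset.analyticAt_fun_sum _ fun n _ => ?_
  refine analyticAt_const.mul ?_
  refine Finset.analyticAt_fun_sum _ fun k _ => ?_
  exact analyticAt_const.mul (ww_an A hR h0 k)

theorem Conj.Dk_eq (A : RootA) (C : Conj N k R ψ₀ ξ₀ ρ) (m : ℕ) :
    ∀ᶠ p in 𝓝 ((ξ₀, 0) : ℂ × ℂ),
      Dk (TT ρ) m (PP N ψ₀ p) = p.1 ^ N * Dh N (k / N) R m p := by
  have h1 : ∀ᶠ p in 𝓝 ((ξ₀, 0) : ℂ × ℂ), ∀ j ∈ Finset.range (m + 1),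
      (TT ρ)^[j] (PP N ψ₀ p) = PP N ψ₀ ((Te N (k / N) R)^[j] p) :=
    (Finset.eventually_all _).2 fun j _ => C.semi_iter A j
  filter_upwards [h1] with p hp
  have h2 : Dk (TT ρ) m (PP N ψ₀ p) = NF m fun j => ψ₀ + p.1 ^ N * ww N (k / N) R j p := by
    rw [Dk_eq_NF]
    unfold NF
    refine Finset.sum_congr rfl fun n hn => ?_
    congr 1
    refine Finset.sum_congr rfl fun j hj => ?_
    congr 1
    have hn2 : n ≤ m := (Finset.mem_Icc.1 hn).2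
    have hj2 : j < n + 1 := Finset.mem_range.1 hj
    show ((TT ρ)^[j] (PP N ψ₀ p)).1 = ψ₀ + p.1 ^ N * ww N (k / N) R j p
    rw [hp j (Finset.mem_range.2 (by omega)), PP]
    simp only
    rw [iter_fst_pow C.hN]
  rw [h2, NF_add, NF_const, zero_add, NF_mul, Dh]

/-- the generating functions of the reduced coefficients -/
noncomputable def Wf (N : ℕ) (σ : ℂ) (R : ℂ → ℂ) (m : ℕ) (p : ℂ × ℂ) : ℂ :=
  p.2 * snc (p.2 * p.1 ^ N) * Dh N σ R m p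

/-- reduced coefficients -/
noncomputable def ee (N : ℕ) (σ : ℂ) (R : ℂ → ℂ) (m : ℕ) (ξ : ℂ) : ℂ :=
  tc (Wf N σ R m) (m - 1) ξ / (m : ℂ)

theorem Wf_an (A : RootA) (hR : AnalyticAt ℂ R ξ) (h0 : R ξ ≠ 0) (m : ℕ) :
    AnalyticAt ℂ (Wf N σ R m) (ξ, 0) := by
  have h1 : AnalyticAt ℂ (fun p : ℂ × ℂ => p.2 * p.1 ^ N) (ξ, 0) :=
    analyticAt_snd.mul (analyticAt_fst.pow N)
  exact (analyticAt_snd.mul ((snc_an _).comp_of_eq h1 rfl)).mul (Dh_an A hR h0 m)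

theorem ee_an (A : RootA) (hR : AnalyticAt ℂ R ξ) (h0 : R ξ ≠ 0) (m : ℕ) :
    AnalyticAt ℂ (ee N σ R m) ξ :=
  (analyticAt_tc (Wf_an A hR h0 m) (m - 1)).div_const

theorem iteratedDeriv_scale (f : ℂ → ℂ) (c : ℂ) (n : ℕ) :
    iteratedDeriv n (fun x => f (c * x)) = fun x => c ^ n * iteratedDeriv n f (c * x) := by
  induction n with
  | zero => simp
  | succ n ih =>
    funext x
    rw [iteratedDeriv_succ, ih, deriv_const_mul_field, deriv_comp_mul_left c (iteratedDeriv n f) x,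
      iteratedDeriv_succ, smul_eq_mul, pow_succ]
    ring

/-- scaling of Taylor coefficients -/
theorem tc_scale {f g : ℂ × ℂ → ℂ} {z z' c a : ℂ}
    (h : ∀ᶠ η in 𝓝 (0 : ℂ), f (z', c * η) = a * g (z, η)) (m : ℕ) :
    c ^ m * tc f m z' = a * tc g m z := by
  have h1 : iteratedDeriv m (fun η : ℂ => f (z', c * η)) 0 =
      c ^ m * iteratedDeriv m (fun δ => f (z', δ)) 0 := by
    rw [iteratedDeriv_scale (fun δ => f (z', δ)) c m]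
    simp
  have h2 : iteratedDeriv m (fun η : ℂ => f (z', c * η)) 0 =
      a * iteratedDeriv m (fun η => g (z, η)) 0 := by
    have h3 : (fun η : ℂ => f (z', c * η)) =ᶠ[𝓝 0] fun η => a * g (z, η) := h
    rw [h3.iteratedDeriv_eq m, iteratedDeriv_const_mul_field]
  rw [tc, tc, ← mul_div_assoc, ← h1, h2, mul_div_assoc]

/-- the canonical coefficients in terms of the reduced ones -/
theorem Conj.Ik_eq (A : RootA) (C : Conj N k R ψ₀ ξ₀ ρ) :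
    ∀ᶠ ξ in 𝓝 ξ₀, ∀ m : ℕ, Ik ρ m (ψ₀ + ξ ^ N) * (ξ ^ N) ^ m =
      ξ ^ k * R ξ * ξ ^ (3 * N) * ee N (k / N) R m ξ := by
  have h0 : ∀ᶠ ξ in 𝓝 ξ₀, ρ (ψ₀ + ξ ^ N) = ξ ^ k * R ξ ∧ AnalyticAt ℂ R ξ ∧ R ξ ≠ 0 ∧ ξ ≠ 0 := by
    filter_upwards [C.hρ, C.hR.eventually_analyticAt, C.hR.continuousAt.eventually_ne C.hR0,
      isOpen_ne.mem_nhds C.hξ] with ξ h1 h2 h3 h4 using ⟨h1, h2, h3, h4⟩
  filter_upwards [h0.eventually_nhds, h0] with ξ h1 h2 m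
  obtain ⟨e1, e2, e3, e4⟩ := h2
  have C' : Conj N k R ψ₀ ξ ρ := ⟨C.hN, e4, e2, e3, h1.mono fun _ h => h.1⟩
  rcases Nat.eq_zero_or_pos m with rfl | hm
  · simp [Ik, ee]
  obtain ⟨n, rfl⟩ : ∃ n, m = n + 1 := ⟨m - 1, by omega⟩
  have h3 : ∀ᶠ η in 𝓝 (0 : ℂ),
      (fun p : ℂ × ℂ => Complex.sin p.2 * Dk (TT ρ) (n + 1) p) (ψ₀ + ξ ^ N, ξ ^ N * η) =
        ξ ^ (2 * N) * Wf N (k / N) R (n + 1) (ξ, η) := by
    have h4 := C'.Dk_eq A (n + 1)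
    have h5 : Tendsto (fun η : ℂ => ((ξ, η) : ℂ × ℂ)) (𝓝 0) (𝓝 (ξ, 0)) := by
      have : Continuous (fun η : ℂ => ((ξ, η) : ℂ × ℂ)) := by fun_prop
      exact this.tendsto 0
    filter_upwards [h5.eventually h4] with η h6
    rw [PP] at h6
    simp only at h6 ⊢
    rw [mul_comm (ξ ^ N) η, h6, Wf]
    simp only
    rw [← mul_snc (η * ξ ^ N)]
    ring
  have h4 := tc_scale (f := fun p : ℂ × ℂ => Complex.sin p.2 * Dk (TT ρ) (n + 1) p)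
    (g := Wf N (k / N) R (n + 1)) (z := ξ) (z' := ψ₀ + ξ ^ N) (c := ξ ^ N) (a := ξ ^ (2 * N)) h3 n
  rw [Ik, ee, e1, Nat.add_sub_cancel]
  have e : ξ ^ k * R ξ * tc (fun p => Complex.sin p.2 * Dk (TT ρ) (n + 1) p) n (ψ₀ + ξ ^ N) *
        (ξ ^ N) ^ (n + 1) = ξ ^ k * R ξ * ξ ^ (3 * N) * tc (Wf N (k / N) R (n + 1)) n ξ := by
    calc ξ ^ k * R ξ * tc (fun p => Complex.sin p.2 * Dk (TT ρ) (n + 1) p) n (ψ₀ + ξ ^ N) *
          (ξ ^ N) ^ (n + 1)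
        = ξ ^ k * R ξ * ξ ^ N * ((ξ ^ N) ^ n *
          tc (fun p => Complex.sin p.2 * Dk (TT ρ) (n + 1) p) n (ψ₀ + ξ ^ N)) := by ring
      _ = ξ ^ k * R ξ * ξ ^ (3 * N) * tc (Wf N (k / N) R (n + 1)) n ξ := by
        rw [h4]; ring
  rw [div_mul_eq_mul_div, e]
  ring

end Vale.Agent.P097.NZ
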