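import Vale.Agent.P097.H128.NZ.End1
import Vale.Agent.P097.H367.PropB

/-! # P097 / NZ: the law at a finitely branched end -/

set_option linter.all false

open Complex Metric Filter Topology Set

namespace Vale.Agent.P097.NZ

variable {N : ℕ} {σ : ℂ} {R : ℂ → ℂ} {ξ : ℂ} {k : ℤ} {ψ₀ ξ₀ : ℂ} {ρ : ℂ → ℂ}

/-- powers of the root close to `1` -/
theorem root_zpow (hN : 1 ≤ N) {w : ℂ} (hw : w ∈ slitPlane) (s : ℂ) :
    (w ^ (1 / (N : ℂ))) ^ s = w ^ (s / N) := by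
  have hne : w ≠ 0 := slitPlane_ne_zero hw
  have hlog : Complex.log (w ^ (1 / (N : ℂ))) = Complex.log w * (1 / N) := by
    rw [Complex.cpow_def_of_ne_zero hne]
    have harg : |(Complex.log w * (1 / (N : ℂ))).im| < Real.pi := by
      have h5 : (Complex.log w * (1 / (N : ℂ))).im = (Complex.log w).im / N := by
        rw [show Complex.log w * (1 / (N : ℂ)) = Complex.log w * ((1 / N : ℝ) : ℂ) by push_cast; ring,
          Complex.mul_im]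
        simp
        ring
      rw [h5, abs_div, Complex.log_im]
      have h6 : |Complex.arg w| < Real.pi := by
        rw [abs_lt]
        refine ⟨neg_pi_lt_arg _, lt_of_le_of_ne (arg_le_pi _) ?_⟩
        exact (mem_slitPlane_iff_arg.1 hw).1
      have h7 : (1 : ℝ) ≤ |(N : ℝ)| := by
        rw [abs_of_nonneg (by positivity)]
        exact_mod_cast hN
      calc |Complex.arg w| / |(N : ℝ)| ≤ |Complex.arg w| / 1 := by gcongr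
        _ = |Complex.arg w| := div_one _
        _ < Real.pi := h6
    rw [abs_lt] at harg
    exact Complex.log_exp harg.1 harg.2.le
  have hne2 : w ^ (1 / (N : ℂ)) ≠ 0 := by
    rw [Complex.cpow_def_of_ne_zero hne]; exact Complex.exp_ne_zero _
  rw [Complex.cpow_def_of_ne_zero hne2, hlog, Complex.cpow_def_of_ne_zero hne]
  congr 1
  ring

/-- local inverse of `ξ ↦ ψ₀ + ξ ^ N` -/
theorem exists_branch (hN : 1 ≤ N) (h0 : ξ₀ ≠ 0) (g : ℂ → ℂ) (ψ₀ : ℂ) :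
    ∃ ρ : ℂ → ℂ, ∀ᶠ ξ in 𝓝 ξ₀, ρ (ψ₀ + ξ ^ N) = g ξ := by
  refine ⟨fun ψ => g (ξ₀ * ((ψ - ψ₀) / ξ₀ ^ N) ^ ((N : ℂ)⁻¹)), ?_⟩
  have hc : ContinuousAt (fun ξ : ℂ => Complex.arg (ξ / ξ₀)) ξ₀ := by
    refine ContinuousAt.comp (g := Complex.arg) ?_ (continuousAt_id.div_const ξ₀)
    refine continuousAt_arg ?_
    simp [div_self h0]
  have hv : Complex.arg (ξ₀ / ξ₀) = 0 := by rw [div_self h0]; simp
  have hNpos : (0 : ℝ) < N := by exact_mod_cast hN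
  have hpos : 0 < Real.pi / N := by positivity
  have h1 : ∀ᶠ ξ in 𝓝 ξ₀, Complex.arg (ξ / ξ₀) ∈ Ioo (-(Real.pi / N)) (Real.pi / N) := by
    refine hc.eventually (IsOpen.mem_nhds isOpen_Ioo ?_)
    show Complex.arg (ξ₀ / ξ₀) ∈ Ioo (-(Real.pi / N)) (Real.pi / N)
    rw [hv]
    exact ⟨by linarith, hpos⟩
  filter_upwards [h1] with ξ h2
  have h3 : (ψ₀ + ξ ^ N - ψ₀) / ξ₀ ^ N = (ξ / ξ₀) ^ N := by
    rw [add_sub_cancel_left, div_pow]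
  simp only [h3]
  rw [Complex.pow_cpow_nat_inv (by omega) ?_ h2.2.le]
  · congr 1
    field_simp
  · exact h2.1

/-- hypotheses of `EndE` -/
structure EndH (N : ℕ) (k : ℤ) (R : ℂ → ℂ) (ψ₀ : ℂ) (ε : ℝ) : Prop where
  hε : 0 < ε
  hN : 1 ≤ N
  dR : DifferentiableOn ℂ R (ball 0 ε)
  R0 : ∀ ξ ∈ ball (0 : ℂ) ε, R ξ ≠ 0
  good : ∀ ξ ∈ ball (0 : ℂ) ε, ξ ≠ 0 → ∀ ρ : ℂ → ℂ,
    (∀ᶠ ξ' in 𝓝 ξ, ρ (ψ₀ + ξ' ^ N) = ξ' ^ k * R ξ') → Good (Ik ρ) (TT ρ) (ψ₀ + ξ ^ N)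

variable {ε : ℝ}

theorem EndH.anR (E : EndH N k R ψ₀ ε) (h : ξ ∈ ball (0 : ℂ) ε) : AnalyticAt ℂ R ξ :=
  E.dR.analyticAt (isOpen_ball.mem_nhds h)

theorem EndH.conj (E : EndH N k R ψ₀ ε) (h : ξ₀ ∈ ball (0 : ℂ) ε) (h0 : ξ₀ ≠ 0) :
    ∃ ρ, Conj N k R ψ₀ ξ₀ ρ ∧ Good (Ik ρ) (TT ρ) (ψ₀ + ξ₀ ^ N) := by
  obtain ⟨ρ, hρ⟩ := exists_branch E.hN h0 (fun ξ => ξ ^ k * R ξ) ψ₀
  exact ⟨ρ, ⟨E.hN, h0, E.anR h, E.R0 _ h, hρ⟩, E.good ξ₀ h h0 ρ hρ⟩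

theorem EndH.geo (A : RootA) (E : EndH N k R ψ₀ ε) (h : ξ₀ ∈ ball (0 : ℂ) ε) (h0 : ξ₀ ≠ 0) :
    GeoBd (ee N (k / N) R) ξ₀ := by
  obtain ⟨ρ, C, G⟩ := E.conj h h0
  obtain ⟨C₁, B, r, hB, hr, hb⟩ := G.bd
  set D : ℂ → ℂ := fun ξ => ξ ^ k * R ξ * ξ ^ (3 * N) with hD
  have hDc : ContinuousAt D ξ₀ :=
    ((continuousAt_zpow₀ ξ₀ k (Or.inl h0)).mul (E.anR h).continuousAt).mul
      (continuous_pow (3 * N)).continuousAt
  have hD0 : D ξ₀ ≠ 0 :=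
    mul_ne_zero (mul_ne_zero (zpow_ne_zero k h0) (E.R0 _ h)) (pow_ne_zero _ h0)
  have h1 : ∀ᶠ ξ in 𝓝 ξ₀, ‖D ξ₀‖ / 2 < ‖D ξ‖ :=
    hDc.norm.eventually_const_lt (by
      have : 0 < ‖D ξ₀‖ := norm_pos_iff.2 hD0
      show ‖D ξ₀‖ / 2 < ‖D ξ₀‖
      linarith)
  have h2 : ∀ᶠ ξ in 𝓝 ξ₀, ‖ξ ^ N‖ < ‖ξ₀ ^ N‖ + 1 :=
    (continuous_pow N).norm.continuousAt.eventually_lt_const (by
      show ‖ξ₀ ^ N‖ < ‖ξ₀ ^ N‖ + 1
      linarith)
  have h3 : ∀ᶠ ξ in 𝓝 ξ₀, ψ₀ + ξ ^ N ∈ ball (ψ₀ + ξ₀ ^ N) r := by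
    have : Continuous fun ξ : ℂ => ψ₀ + ξ ^ N := by fun_prop
    exact this.continuousAt.eventually (ball_mem_nhds _ hr)
  obtain ⟨s, hs, h4⟩ := Metric.eventually_nhds_iff_ball.1 (((h1.and h2).and h3).and (C.Ik_eq A))
  have hD0' : 0 < ‖D ξ₀‖ := norm_pos_iff.2 hD0
  refine ⟨C₁ / (‖D ξ₀‖ / 2), B * (‖ξ₀ ^ N‖ + 1), s, by positivity, hs, fun ξ hξ m => ?_⟩
  obtain ⟨⟨⟨g1, g2⟩, g3⟩, g4⟩ := h4 ξ hξ
  have g5 := g4 m
  have hDξ : D ξ ≠ 0 := norm_pos_iff.1 (lt_trans (by positivity) g1)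
  have g6 : ee N (k / N) R m ξ = Ik ρ m (ψ₀ + ξ ^ N) * (ξ ^ N) ^ m / D ξ := by
    rw [g5, eq_div_iff hDξ, mul_comm]
  rw [g6, norm_div, norm_mul, norm_pow]
  have hC1 : 0 ≤ C₁ := by
    have := (norm_nonneg _).trans (hb _ (mem_ball_self hr) 0)
    simpa using this
  calc ‖Ik ρ m (ψ₀ + ξ ^ N)‖ * ‖ξ ^ N‖ ^ m / ‖D ξ‖
      ≤ C₁ * B ^ m * (‖ξ₀ ^ N‖ + 1) ^ m / (‖D ξ₀‖ / 2) := by
        gcongr
        exact hb _ g3 m
    _ = C₁ / (‖D ξ₀‖ / 2) * (B * (‖ξ₀ ^ N‖ + 1)) ^ m := by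
        rw [mul_pow]; ring

theorem geoBd_compact {u : ℕ → ℂ → ℂ} {K : Set ℂ} (hK : IsCompact K) (h : ∀ z ∈ K, GeoBd u z) :
    ∃ C B : ℝ, 0 < B ∧ 0 ≤ C ∧ ∀ z ∈ K, ∀ m, ‖u m z‖ ≤ C * B ^ m := by
  refine hK.induction_on (p := fun s => ∃ C B : ℝ, 0 < B ∧ 0 ≤ C ∧ ∀ z ∈ s, ∀ m, ‖u m z‖ ≤ C * B ^ m)
    ⟨0, 1, one_pos, le_rfl, by simp⟩ ?_ ?_ ?_
  · rintro s t hst ⟨C, B, hB, hC, hb⟩
    exact ⟨C, B, hB, hC, fun z hz => hb z (hst hz)⟩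
  · rintro s t ⟨C, B, hB, hC, hb⟩ ⟨C', B', hB', hC', hb'⟩
    refine ⟨max C C', max B B', lt_max_of_lt_left hB, hC.trans (le_max_left _ _), ?_⟩
    rintro z (hz | hz) m
    · calc ‖u m z‖ ≤ C * B ^ m := hb z hz m
        _ ≤ max C C' * max B B' ^ m := by
          gcongr <;> first | exact le_max_left _ _ | exact le_max_of_le_left hC
    · calc ‖u m z‖ ≤ C' * B' ^ m := hb' z hz m
        _ ≤ max C C' * max B B' ^ m := by
          gcongr <;> first | exact le_max_right _ _ | exact le_max_of_le_right hC'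
  · intro z hz
    obtain ⟨C, B, r, hB, hr, hb⟩ := h z hz
    have hC : 0 ≤ C := by
      have := (norm_nonneg _).trans (hb z (mem_ball_self hr) 0)
      simpa using this
    exact ⟨ball z r, mem_nhdsWithin_of_mem_nhds (ball_mem_nhds z hr), C, B, hB, hC, hb⟩

/-- maximum principle -/
theorem EndH.geo0 (A : RootA) (E : EndH N k R ψ₀ ε) :
    ∃ C B : ℝ, 0 < B ∧ 0 ≤ C ∧ ∀ ξ ∈ ball (0 : ℂ) (ε / 2), ∀ m, ‖ee N (k / N) R m ξ‖ ≤ C * B ^ m := by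
  have hε := E.hε
  obtain ⟨C, B, hB, hC, hb⟩ := geoBd_compact (u := ee N (k / N) R) (isCompact_sphere (0 : ℂ) (ε / 2))
    fun z hz => by
      rw [mem_sphere_zero_iff_norm] at hz
      refine E.geo A (by rw [mem_ball_zero_iff, hz]; linarith) ?_
      rintro rfl
      rw [norm_zero] at hz
      linarith
  refine ⟨C, B, hB, hC, fun ξ hξ m => ?_⟩
  have hd : DifferentiableOn ℂ (ee N (k / N) R m) (ball 0 ε) := fun z hz =>
    (ee_an A (E.anR hz) (E.R0 _ hz) m).differentiableAt.differentiableWithinAt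
  have hd2 : DiffContOnCl ℂ (ee N (k / N) R m) (ball 0 (ε / 2)) :=
    (hd.mono (closedBall_subset_ball (by linarith))).diffContOnCl_ball le_rfl
  refine Complex.norm_le_of_forall_mem_frontier_norm_le isBounded_ball hd2 (fun z hz => ?_)
    (subset_closure hξ)
  rw [frontier_ball _ (by positivity)] at hz
  exact hb z hz m

theorem EndH.ee_diff (A : RootA) (E : EndH N k R ψ₀ ε) (m : ℕ) :
    DifferentiableOn ℂ (ee N (k / N) R m) (ball 0 ε) := fun z hz =>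
  (ee_an A (E.anR hz) (E.R0 _ hz) m).differentiableAt.differentiableWithinAt

/-- the reduced invariant function is analytic near the end -/
theorem EndH.Sm_diff (A : RootA) (E : EndH N k R ψ₀ ε) :
    ∃ s : ℝ, 0 < s ∧ s ≤ ε / 2 ∧
      DifferentiableOn ℂ (Sm (ee N (k / N) R)) (ball 0 s ×ˢ ball 0 s) := by
  have hε := E.hε
  obtain ⟨C, B, hB, hC, hb⟩ := E.geo0 A
  have h1 := differentiableOn_Sm (u := ee N (k / N) R) (z := 0) (r := ε / 2) hB (by positivity) hb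
    fun m => (E.ee_diff A m).mono (ball_subset_ball (by linarith))
  refine ⟨min (ε / 2) (1 / (2 * B)), lt_min (by positivity) (by positivity), min_le_left _ _,
    h1.mono (prod_mono (ball_subset_ball (min_le_left _ _)) (ball_subset_ball (min_le_right _ _)))⟩

/-- the law away from the end -/
theorem EndH.law (A : RootA) (E : EndH N k R ψ₀ ε) (h : ξ₀ ∈ ball (0 : ℂ) ε) (h0 : ξ₀ ≠ 0) :
    ∀ᶠ p in 𝓝 ((ξ₀, 0) : ℂ × ℂ),
      rr N (k / N) R p ^ ((k : ℂ) / N + 3) * R (Te N (k / N) R p).1 *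
        Sm (ee N (k / N) R) (Te N (k / N) R p) = R p.1 * Sm (ee N (k / N) R) p := by
  obtain ⟨ρ, C, G⟩ := E.conj h h0
  have h1 : ∀ᶠ p in 𝓝 ((ξ₀, 0) : ℂ × ℂ),
      Sm (Ik ρ) (PP N ψ₀ p) = p.1 ^ k * R p.1 * p.1 ^ (3 * N) * Sm (ee N (k / N) R) p := by
    have h2 : ∀ᶠ p in 𝓝 ((ξ₀, 0) : ℂ × ℂ), ∀ m : ℕ, Ik ρ m (ψ₀ + p.1 ^ N) * (p.1 ^ N) ^ m =
      p.1 ^ k * R p.1 * p.1 ^ (3 * N) * ee N (k / N) R m p.1 :=
      (continuous_fst.tendsto ((ξ₀, 0) : ℂ × ℂ)).eventually (C.Ik_eq A)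
    filter_upwards [h2] with p hp
    rw [Sm, Sm, ← tsum_mul_left]
    congr 1
    funext m
    simp only [PP]
    have := hp m
    calc Ik ρ m (ψ₀ + p.1 ^ N) * (p.2 * p.1 ^ N) ^ m
        = Ik ρ m (ψ₀ + p.1 ^ N) * (p.1 ^ N) ^ m * p.2 ^ m := by rw [mul_pow]; ring
      _ = _ := by rw [this]; ring
  have h2 : Tendsto (Te N (k / N) R) (𝓝 ((ξ₀, 0) : ℂ × ℂ)) (𝓝 (ξ₀, 0)) := by
    have := (Te_an (N := N) (σ := (k / N : ℂ)) A C.hR C.hR0).continuousAt.tendsto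
    rwa [Te_axis] at this
  have h3 : ∀ᶠ p in 𝓝 ((ξ₀, 0) : ℂ × ℂ), rr N (k / N) R p ∈ slitPlane := by
    refine (rr_an A C.hR C.hR0).continuousAt.eventually (isOpen_slitPlane.mem_nhds ?_)
    rw [rr_axis]
    simp
  have h4 : ∀ᶠ p in 𝓝 ((ξ₀, 0) : ℂ × ℂ), p.1 ≠ 0 := continuous_fst.continuousAt.eventually_ne h0
  filter_upwards [h1, h2.eventually h1, h3, h4, C.semi A, (PP_tendsto ξ₀).eventually G.inv] with
    p g1 g2 g3 g4 g5 g6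
  rw [g5, g1, g2] at g6
  have hr0 : rr N (k / N) R p ≠ 0 := slitPlane_ne_zero g3
  have e1 : (Te N (k / N) R p).1 = p.1 * rr N (k / N) R p ^ (1 / (N : ℂ)) := rfl
  have e2 : (p.1 * rr N (k / N) R p ^ (1 / (N : ℂ))) ^ k =
      p.1 ^ k * rr N (k / N) R p ^ ((k : ℂ) / N) := by
    rw [mul_zpow, ← Complex.cpow_intCast (rr N (k / N) R p ^ (1 / (N : ℂ))) k,
      root_zpow C.hN g3]
  have e3 : (p.1 * rr N (k / N) R p ^ (1 / (N : ℂ))) ^ (3 * N) =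
      p.1 ^ (3 * N) * rr N (k / N) R p ^ 3 := by
    rw [mul_pow, mul_comm 3 N, pow_mul (rr N (k / N) R p ^ (1 / (N : ℂ))), cpow_root_pow C.hN]
  have e4 : rr N (k / N) R p ^ ((k : ℂ) / N + 3) =
      rr N (k / N) R p ^ ((k : ℂ) / N) * rr N (k / N) R p ^ 3 := by
    rw [Complex.cpow_add _ _ hr0]
    congr 1
    exact_mod_cast Complex.cpow_natCast (rr N (k / N) R p) 3
  rw [e1] at g6 ⊢
  rw [e2, e3] at g6
  rw [e4]
  have hp : p.1 ^ k * p.1 ^ (3 * N) ≠ 0 := mul_ne_zero (zpow_ne_zero k g4) (pow_ne_zero _ g4)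
  refine mul_left_cancel₀ hp ?_
  linear_combination g6

/-- the law at the end -/
theorem EndH.law0 (A : RootA) (E : EndH N k R ψ₀ ε) :
    ∀ᶠ p in 𝓝 ((0, 0) : ℂ × ℂ),
      rr N (k / N) R p ^ ((k : ℂ) / N + 3) * R (Te N (k / N) R p).1 *
        Sm (ee N (k / N) R) (Te N (k / N) R p) = R p.1 * Sm (ee N (k / N) R) p := by
  have hε := E.hε
  obtain ⟨s, hs, hsε, hd⟩ := E.Sm_diff A
  have hJD : ∀ {F : ℂ × ℂ → ℂ} {x : ℂ}, AnalyticAt ℂ F (x, 0) →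
      ∃ δ > 0, TA.JD (fun a b => F (a, b)) (ball x δ ×ˢ ball 0 δ) := by
    intro F x hF
    obtain ⟨δ, hδ, h1⟩ := exists_polydisc hF.eventually_analyticAt
    refine ⟨δ, hδ, fun p hp => ?_⟩
    exact (h1 p.1 hp.1 p.2 hp.2).differentiableAt.differentiableWithinAt
  have hSm : ∀ x ∈ ball (0 : ℂ) s, AnalyticAt ℂ (Sm (ee N (k / N) R)) (x, 0) := fun x hx =>
    Hol.analyticAt_of_differentiableOn (isOpen_ball.prod isOpen_ball) hd ⟨hx, mem_ball_self hs⟩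
  have hxε : ∀ x ∈ ball (0 : ℂ) s, x ∈ ball (0 : ℂ) ε := fun x hx =>
    ball_subset_ball (by linarith) hx
  have hL : ∀ x ∈ ball (0 : ℂ) s, AnalyticAt ℂ (fun p : ℂ × ℂ =>
      rr N (k / N) R p ^ ((k : ℂ) / N + 3) * R (Te N (k / N) R p).1 *
        Sm (ee N (k / N) R) (Te N (k / N) R p)) (x, 0) := by
    intro x hx
    have a1 := E.anR (hxε x hx)
    have a2 := E.R0 _ (hxε x hx)
    have a3 := Te_an (N := N) (σ := (k / N : ℂ)) A a1 a2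
    refine ((rr_cpow_an A a1 a2 _).mul ?_).mul ?_
    · exact a1.comp_of_eq (fst_an a3) (by rw [Te_axis])
    · exact (hSm x hx).comp_of_eq a3 (Te_axis x)
  have hR' : ∀ x ∈ ball (0 : ℂ) s, AnalyticAt ℂ (fun p : ℂ × ℂ =>
      R p.1 * Sm (ee N (k / N) R) p) (x, 0) := by
    intro x hx
    refine AnalyticAt.mul ?_ (hSm x hx)
    have a1 : AnalyticAt ℂ (fun p : ℂ × ℂ => p.1) ((x, 0) : ℂ × ℂ) := analyticAt_fst
    exact (E.anR (hxε x hx)).comp_of_eq a1 rfl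
  have hs2 : ((s / 2 : ℝ) : ℂ) ∈ ball (0 : ℂ) s := by
    rw [mem_ball_zero_iff, norm_real, Real.norm_eq_abs, abs_of_pos (by positivity)]
    linarith
  have hs20 : ((s / 2 : ℝ) : ℂ) ≠ 0 := by
    exact_mod_cast (by positivity : (s / 2 : ℝ) ≠ 0)
  exact H367.PropD.germ_eq (convex_ball (0 : ℂ) s).isPreconnected (fun x hx => hJD (hL x hx))
    (fun x hx => hJD (hR' x hx)) hs2 (E.law A (hxε _ hs2) hs20) 0 (mem_ball_self hs)

end Vale.Agent.P097.NZ
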