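import Vale.Agent.P097.H128.NZ.End2

/-! # P097 / NZ: the law at a finitely branched end, conclusion -/

set_option linter.all false

open Complex Metric Filter Topology Set

namespace Vale.Agent.P097.NZ

variable {N : ℕ} {σ : ℂ} {R : ℂ → ℂ} {ξ : ℂ} {k : ℤ} {ψ₀ ξ₀ : ℂ} {ρ : ℂ → ℂ} {ε : ℝ}

/-- even coefficients vanish -/
theorem EndH.even (A : RootA) (E : EndH N k R ψ₀ ε) {m : ℕ} (hm : Even m) :
    ee N (k / N) R m 0 = 0 := by
  have hε := E.hε
  set x : ℂ := ((ε / 2 : ℝ) : ℂ) with hx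
  have hx1 : x ∈ ball (0 : ℂ) ε := by
    rw [mem_ball_zero_iff, norm_real, Real.norm_eq_abs, abs_of_pos (by positivity)]
    linarith
  have hx0 : x ≠ 0 := by
    rw [hx]
    exact_mod_cast (by positivity : (ε / 2 : ℝ) ≠ 0)
  obtain ⟨ρ, C, G⟩ := E.conj hx1 hx0
  have h1 : ∀ᶠ ξ in 𝓝 x, ∀ m : ℕ, Even m → Ik ρ m (ψ₀ + ξ ^ N) = 0 := by
    have hc : Continuous fun ξ : ℂ => ψ₀ + ξ ^ N := by fun_prop
    exact (hc.tendsto x).eventually G.odd
  have h2 : ee N (k / N) R m =ᶠ[𝓝 x] 0 := by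
    filter_upwards [h1, C.Ik_eq A, C.hR.continuousAt.eventually_ne C.hR0,
      isOpen_ne.mem_nhds hx0] with ξ g1 g2 g3 g4
    have g5 := g2 m
    rw [g1 m hm, zero_mul] at g5
    have g6 : ξ ^ k * R ξ * ξ ^ (3 * N) ≠ 0 :=
      mul_ne_zero (mul_ne_zero (zpow_ne_zero k g4) g3) (pow_ne_zero _ g4)
    exact (mul_eq_zero.1 g5.symm).resolve_left g6
  have h3 : AnalyticOnNhd ℂ (ee N (k / N) R m) (ball 0 ε) := fun z hz =>
    ee_an A (E.anR hz) (E.R0 _ hz) m
  exact h3.eqOn_zero_of_preconnected_of_eventuallyEq_zero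
    (convex_ball (0 : ℂ) ε).isPreconnected hx1 h2 (mem_ball_self hε)

/-! ## derivatives at the end -/

theorem Te_zero_fst (y : ℂ) : (Te N σ R (0, y)).1 = 0 := by simp [Te]

theorem iter_zero_fst (j : ℕ) (y : ℂ) : ((Te N σ R)^[j] (0, y)).1 = 0 := by
  induction j with
  | zero => rfl
  | succ j ih =>
    rw [Function.iterate_succ', Function.comp_apply]
    have : (Te N σ R)^[j] (0, y) = (0, ((Te N σ R)^[j] (0, y)).2) := Prod.ext ih rfl
    rw [this]
    exact Te_zero_fst _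

theorem re_slice (A : RootA) (hR : AnalyticAt ℂ R 0) (h0 : R 0 ≠ 0) :
    DifferentiableAt ℂ (fun y => re N σ R (0, y)) 0 :=
  (analyticAt_pair2 (re_an A hR h0)).differentiableAt

theorem rr_slice (A : RootA) (hR : AnalyticAt ℂ R 0) (h0 : R 0 ≠ 0) :
    HasDerivAt (fun y => rr N σ R (0, y)) 2 0 := by
  have h1 := (re_slice (N := N) (σ := σ) A hR h0).hasDerivAt
  have h2 : HasDerivAt (fun y : ℂ => 1 + y * re N σ R (0, y))
      (1 * re N σ R (0, 0) + 0 * deriv (fun y => re N σ R (0, y)) 0) 0 :=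
    ((hasDerivAt_id (0 : ℂ)).mul h1).const_add 1
  exact h2.congr_deriv (by rw [re_axis A hR h0]; ring)

theorem Te_slice (A : RootA) (hR : AnalyticAt ℂ R 0) (h0 : R 0 ≠ 0) :
    HasDerivAt (fun y => (Te N σ R (0, y)).2) 1 0 := by
  have h1 := re_slice (N := N) (σ := σ) A hR h0
  have h2 : DifferentiableAt ℂ (fun y => (re N σ R (0, y) - 1) / rr N σ R (0, y)) 0 := by
    refine (h1.sub_const 1).div (rr_slice A hR h0).differentiableAt ?_
    rw [rr_axis]
    exact one_ne_zero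
  have h3 := (hasDerivAt_id (0 : ℂ)).mul h2.hasDerivAt
  have h4 : (fun y : ℂ => (Te N σ R (0, y)).2) =
      fun y => id y * ((re N σ R (0, y) - 1) / rr N σ R (0, y)) := by
    funext y
    rw [Te_eq]
    simp only [rr, id]
    ring
  rw [h4]
  refine HasDerivAt.congr_deriv h3 ?_
  rw [re_axis A hR h0, rr_axis]
  simp
  norm_num

theorem iter_slice (A : RootA) (hR : AnalyticAt ℂ R 0) (h0 : R 0 ≠ 0) (j : ℕ) :
    HasDerivAt (fun y => ((Te N σ R)^[j] (0, y)).2) 1 0 := by
  induction j with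
  | zero => exact hasDerivAt_id 0
  | succ j ih =>
    have h1 : (fun y => ((Te N σ R)^[j + 1] (0, y)).2) =
        (fun y => (Te N σ R (0, y)).2) ∘ fun y => ((Te N σ R)^[j] (0, y)).2 := by
      funext y
      rw [Function.iterate_succ', Function.comp_apply, Function.comp_apply]
      have : (Te N σ R)^[j] (0, y) = (0, ((Te N σ R)^[j] (0, y)).2) :=
        Prod.ext (iter_zero_fst j y) rfl
      rw [← this]
    rw [h1]
    have h2 : ((Te N σ R)^[j] (0, (0 : ℂ))).2 = 0 := by rw [Te_iter_axis]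
    have h3 : HasDerivAt (fun y => (Te N σ R (0, y)).2) 1 ((Te N σ R)^[j] (0, (0 : ℂ))).2 := by
      rw [h2]
      exact Te_slice A hR h0
    exact (HasDerivAt.comp (0 : ℂ) h3 ih).congr_deriv (by ring)

theorem ww_slice (A : RootA) (hR : AnalyticAt ℂ R 0) (h0 : R 0 ≠ 0) (j : ℕ) :
    HasDerivAt (fun y => ww N σ R j (0, y)) (2 * j) 0 := by
  induction j with
  | zero =>
    simp only [ww, Nat.cast_zero, mul_zero]
    exact hasDerivAt_const _ _
  | succ j ih =>
    have h1 : (fun y => ww N σ R (j + 1) (0, y)) =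
        fun y => ww N σ R j (0, y) *
          ((fun y => rr N σ R (0, y)) ∘ fun y => ((Te N σ R)^[j] (0, y)).2) y := by
      funext y
      rw [ww, Function.comp_apply]
      have : (Te N σ R)^[j] (0, y) = (0, ((Te N σ R)^[j] (0, y)).2) :=
        Prod.ext (iter_zero_fst j y) rfl
      rw [← this]
    rw [h1]
    have h2 : ((Te N σ R)^[j] (0, (0 : ℂ))).2 = 0 := by rw [Te_iter_axis]
    have h3 : HasDerivAt (fun y => rr N σ R (0, y)) 2 ((Te N σ R)^[j] (0, (0 : ℂ))).2 := by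
      rw [h2]
      exact rr_slice A hR h0
    have h4 := ih.mul (HasDerivAt.comp (0 : ℂ) h3 (iter_slice (N := N) (σ := σ) A hR h0 j))
    refine HasDerivAt.congr_deriv h4 ?_
    rw [Function.comp_apply, h2, rr_axis, ww_axis]
    push_cast
    ring

theorem NF_hasDerivAt {m : ℕ} {f : ℕ → ℂ → ℂ} {f' : ℕ → ℂ} {y : ℂ}
    (h : ∀ j, HasDerivAt (f j) (f' j) y) :
    HasDerivAt (fun y => NF m fun j => f j y) (NF m f') y := by
  unfold NF
  refine HasDerivAt.fun_sum fun n _ => ?_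
  refine HasDerivAt.const_mul _ ?_
  refine HasDerivAt.fun_sum fun j _ => ?_
  exact (h j).const_mul _

theorem NF_three : NF 3 (fun j : ℕ => 2 * (j : ℂ)) = 2 := by
  unfold NF
  rw [show Finset.Icc 1 3 = {1, 2, 3} by decide]
  simp [Finset.sum_range_succ, Nat.choose]
  norm_num

theorem ee_one (hN : 1 ≤ N) : ee N σ R 1 0 = 0 := by
  simp [ee, tc, Wf]

theorem ee_three (A : RootA) (hN : 1 ≤ N) (hR : AnalyticAt ℂ R 0) (h0 : R 0 ≠ 0) :
    ee N σ R 3 0 = 2 / 3 := by
  set D : ℂ → ℂ := fun y => Dh N σ R 3 (0, y) with hD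
  have hDan : AnalyticAt ℂ D 0 := analyticAt_pair2 (Dh_an A hR h0 3)
  have hD' : HasDerivAt D 2 0 := by
    have := NF_hasDerivAt (m := 3) fun j => ww_slice (N := N) (σ := σ) A hR h0 j
    rw [NF_three] at this
    exact this
  have h1 : (fun δ : ℂ => Wf N σ R 3 (0, δ)) = fun δ => δ * D δ := by
    funext δ
    simp only [Wf, hD]
    rw [zero_pow (by omega), mul_zero, snc_zero, mul_one]
  have h2 : deriv (fun δ => δ * D δ) =ᶠ[𝓝 0] fun δ => D δ + δ * deriv D δ := by
    filter_upwards [hDan.eventually_analyticAt] with δ hδ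
    have := (hasDerivAt_id δ).mul hδ.differentiableAt.hasDerivAt
    have h3 := this.deriv
    simp only [id, one_mul] at h3
    exact h3
  have h3 : HasDerivAt (fun δ => D δ + δ * deriv D δ) (2 + (1 * deriv D 0 + 0 * deriv (deriv D) 0))
      0 := hD'.add ((hasDerivAt_id (0 : ℂ)).mul hDan.deriv.differentiableAt.hasDerivAt)
  have h4 : iteratedDeriv 2 (fun δ : ℂ => Wf N σ R 3 (0, δ)) 0 = 4 := by
    rw [h1, iteratedDeriv_succ, iteratedDeriv_one, h2.deriv_eq, h3.deriv, hD'.deriv]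
    norm_num
  rw [ee, tc, h4]
  norm_num [Nat.factorial]

/-- NZ-E -/
theorem endE (A : RootA) : EndE := by
  intro N k R ψ₀ ε hε hN dR R0 good
  have E : EndH N k R ψ₀ ε := ⟨hε, hN, dR, R0, good⟩
  have h0 : (0 : ℂ) ∈ ball (0 : ℂ) ε := mem_ball_self hε
  have hR := E.anR h0
  have hR0 := E.R0 0 h0
  have hN0 : N ≠ 0 := by omega
  obtain ⟨C, B, hB, hC, hb⟩ := E.geo0 A
  have h0' : (0 : ℂ) ∈ ball (0 : ℂ) (ε / 2) := mem_ball_self (by positivity)
  set e : ℕ → ℂ := fun m => ee N (k / N) R m 0 with he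
  have hsl : ∀ y : ℂ, re N (k / N) R (0, y) = root (fun v => (1 + y * v) ^ ((k : ℂ) / N)) := by
    intro y
    refine root_congr (c := R 0) hR0 fun v _ => ?_
    simp only [ke]
    rw [zero_mul, zero_pow hN0, mul_zero, zero_mul, snc_zero]
    ring
  refine ⟨fun y => Sm (ee N (k / N) R) (0, y), ?_, ?_, ?_, ?_⟩
  · obtain ⟨s, hs, hsε, hd⟩ := E.Sm_diff A
    exact analyticAt_pair2 (Hol.analyticAt_of_differentiableOn (isOpen_ball.prod isOpen_ball) hd
      ⟨mem_ball_self hs, mem_ball_self hs⟩)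
  · refine Filter.Eventually.of_forall fun y => ?_
    simp only [Sm]
    rw [← tsum_neg]
    congr 1
    funext m
    rcases Nat.even_or_odd m with hm | hm
    · rw [E.even A hm]; simp
    · rw [hm.neg_pow]; ring
  · refine ⟨2 / 3, by norm_num, ?_⟩
    have h1 : ∀ᶠ y in 𝓝 (0 : ℂ),
        ‖Sm (ee N (k / N) R) (0, y) - 2 / 3 * y ^ 3‖ ≤ 2 * (C * B ^ 5) * ‖y ^ 5‖ := by
      filter_upwards [ball_mem_nhds (0 : ℂ) (show (0 : ℝ) < 1 / (2 * B) by positivity)] with y hy
      rw [mem_ball_zero_iff] at hy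
      have h2 := (hasSum_Sm (u := e) hB (hb 0 h0') hy).1
      have h3 := h2.sum_add_tsum_nat_add 5
      have h4 : ∑ i ∈ Finset.range 5, e i * y ^ i = 2 / 3 * y ^ 3 := by
        have e0 : e 0 = 0 := E.even A (by decide)
        have e2 : e 2 = 0 := E.even A (by decide)
        have e4 : e 4 = 0 := E.even A (by decide)
        have e1 : e 1 = 0 := ee_one hN
        have e3 : e 3 = 2 / 3 := ee_three A hN hR hR0
        simp [Finset.sum_range_succ, e0, e1, e2, e3, e4]
      have h5 : Sm (ee N (k / N) R) (0, y) = ∑' i, e i * y ^ i := rfl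
      rw [h5, ← h3, h4, add_sub_cancel_left]
      have h6 : (fun i => e (i + 5) * y ^ (i + 5)) = fun i => y ^ 5 * (e (i + 5) * y ^ i) := by
        funext i; ring
      rw [h6, tsum_mul_left, norm_mul, mul_comm]
      gcongr
      have h7 := hasSum_Sm (u := fun i => e (i + 5)) (C := C * B ^ 5) hB
        (fun m => by
          have := hb 0 h0' (m + 5)
          calc ‖e (m + 5)‖ ≤ C * B ^ (m + 5) := this
            _ = C * B ^ 5 * B ^ m := by ring) hy
      have h8 := h7.1.hasSum.tendsto_sum_nat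
      refine le_of_tendsto h8.norm (Filter.Eventually.of_forall fun n => ?_)
      exact h7.2 (Finset.range n)
    exact Asymptotics.IsBigO.of_bound _ h1
  · have hc : Tendsto (fun y : ℂ => ((0, y) : ℂ × ℂ)) (𝓝 0) (𝓝 (0, 0)) := by
      have : Continuous (fun y : ℂ => ((0, y) : ℂ × ℂ)) := by fun_prop
      exact this.tendsto 0
    filter_upwards [hc.eventually (E.law0 A)] with y hy
    rw [Te_zero_fst] at hy
    have h1 : Te N (k / N) R (0, y) =
        (0, y * (root (fun v => (1 + y * v) ^ ((k : ℂ) / N)) - 1) /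
          (1 + y * root (fun v => (1 + y * v) ^ ((k : ℂ) / N)))) := by
      refine Prod.ext (Te_zero_fst y) ?_
      rw [Te_eq]
      simp only [hsl y]
    have h2 : rr N (k / N) R (0, y) =
        1 + y * root (fun v => (1 + y * v) ^ ((k : ℂ) / N)) := by
      rw [rr]
      simp only [hsl y]
    rw [h1, h2] at hy
    refine mul_left_cancel₀ hR0 ?_
    linear_combination hy

end Vale.Agent.P097.NZ
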