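import Vale.Agent.P097.H128.NZ.End3
import Vale.Agent.P097.H65.NZA
import Vale.Agent.P097.H846.ContGood
import Vale.Agent.P097.H519.NZH2
import Vale.Agent.P097.H967.NzFin
import Vale.Agent.P097.H202.PenA
import Vale.Agent.P097.H24.K23
import Vale.Agent.P097.H990.K1
import Vale.Agent.P097.H402.Equiv

/-! # P097 / program NZ: the theorems -/

set_option linter.all false

open Complex Metric Filter Topology Set

namespace Vale.Agent.P097.NZ

open Vale.Agent.P097.TA Vale.Agent.P097.H202 Vale.Agent.P097.H402.Rat

theorem branch : NZBranch :=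
  H519.nzBranch H65.rootA (contGood H65.rootA) (endE H65.rootA) H202.pa H990.pk1
    (H24.pk2_of fun σ f h1 h2 => H990.k1 σ h1 h2 f) (H24.pk3_of H990.pk1)

theorem noZero : NZMain := H519.nzMain branch

theorem finOrder : NZFin := H967.nzFin noZero

end Vale.Agent.P097.NZ
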