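import Vale.Agent.P097.H128.NZ.Main

/-! # P097 / program NZ: analytic continuation along chains of domains -/

set_option linter.all false

open Complex Metric Filter Topology Set

namespace Vale.Agent.P097.NZ

open Vale.Agent.P097.TA Vale.Agent.P097.H202 Vale.Agent.P097.H402.Rat

/-- the germs `(z, ρ)` of the radius of curvature which are obtained from a real point by analytic
continuation without zeros, along arbitrary chains of domains -/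
inductive Reach (h : ℝ → ℝ) : ℂ → (ℂ → ℂ) → Prop
  | start (x₀ : ℝ) (ρ : ℂ → ℂ) : AnalyticAt ℂ ρ x₀ →
      (∀ᶠ x : ℝ in 𝓝 x₀, ρ x = ((h x + deriv (deriv h) x : ℝ) : ℂ)) → Reach h x₀ ρ
  | move (z z' : ℂ) (ρ σ : ℂ → ℂ) (D : Set ℂ) : Reach h z ρ → IsOpen D → IsPreconnected D →
      z ∈ D → z' ∈ D → DifferentiableOn ℂ σ D → (∀ w ∈ D, σ w ≠ 0) → σ =ᶠ[𝓝 z] ρ → Reach h z' σ

theorem reach_an {h : ℝ → ℝ} (hs : SmoothTable h) {z : ℂ} {ρ : ℂ → ℂ} (H : Reach h z ρ) :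
    AnalyticAt ℂ ρ z ∧ ρ z ≠ 0 := by
  cases H with
  | start x₀ ρ ha he =>
    refine ⟨ha, ?_⟩
    rw [he.self_of_nhds]
    have := hs.2.2 x₀
    exact_mod_cast this.ne'
  | move z z' ρ σ D hr hD hc hz hz' hσ h0 he =>
    exact ⟨hσ.analyticAt (hD.mem_nhds hz'), h0 _ hz'⟩

theorem reach_good {h : ℝ → ℝ} {η : ℝ} (hη : 0 < η) (hs : SmoothTable h) (hc : Collar h η)
    {z : ℂ} {ρ : ℂ → ℂ} (H : Reach h z ρ) : Good (Ik ρ) (TT ρ) z := by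
  induction H with
  | start x₀ ρ ha he =>
    have h0 : ρ x₀ ≠ 0 := (reach_an hs (Reach.start x₀ ρ ha he)).2
    obtain ⟨r, hr, hb⟩ := Metric.eventually_nhds_iff_ball.1
      (ha.eventually_analyticAt.and (ha.continuousAt.eventually_ne h0))
    have C : Cont h (ball (x₀ : ℂ) r) (fun u => u) ρ := by
      refine ⟨isOpen_ball, (convex_ball _ _).isPreconnected, differentiableOn_id, ?_, ?_, ?_⟩
      · exact fun w hw => (hb w hw).1.differentiableAt.differentiableWithinAt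
      · exact fun w hw => ⟨by simp, (hb w hw).2⟩
      · refine ⟨x₀, mem_ball_self hr, x₀, rfl, ?_⟩
        have h1 : Tendsto (fun u : ℂ => u.re) (𝓝 (x₀ : ℂ)) (𝓝 x₀) :=
          Continuous.tendsto' continuous_re _ _ (by simp)
        filter_upwards [h1.eventually he] with u h2 x h3
        rw [h3] at h2
        simp only [ofReal_re] at h2
        rw [h3]
        exact h2
    obtain ⟨u₀, hu₀, h1⟩ := H519.start_good H65.rootA H202.pa hη hs hc C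
    have h2 := contGood H65.rootA (ball (x₀ : ℂ) r) (fun u => u) ρ u₀ C.hU C.conn C.dπ C.dg C.ne
      hu₀ h1 x₀ (mem_ball_self hr)
    exact h2 ρ (Eventually.of_forall fun _ => rfl)
  | move z z' ρ σ D hr hD hpc hz hz' hσ h0 he ih =>
    have h1 : GoodAt (fun u => u) σ z := by
      intro ρ' h2
      refine H519.good_congr ?_ ih
      filter_upwards [h2, he] with u h3 h4
      rw [h3, h4]
    have h2 := contGood H65.rootA D (fun u => u) σ z hD hpc differentiableOn_id hσ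
      (fun w hw => ⟨by simp, h0 w hw⟩) hz h1 z' hz'
    exact h2 σ (Eventually.of_forall fun _ => rfl)

/-- the exponents at an end whose germs are good -/
theorem end_exponent {N : ℕ} {k : ℤ} {R : ℂ → ℂ} {ψ₀ : ℂ} {ε : ℝ} (E : EndH N k R ψ₀ ε) :
    k = 0 ∨ 2 * k = -3 * N ∨ k ≤ -2 * N := by
  obtain ⟨G, hG, hodd, hGc, hlaw⟩ := endE H65.rootA N k R ψ₀ ε E.hε E.hN E.dR E.R0 E.good
  have hcast : ((k : ℂ) / (N : ℂ)) = (((k : ℝ) / (N : ℝ) : ℝ) : ℂ) := by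
    push_cast
    rfl
  simp only [hcast] at hlaw
  obtain ⟨f, hf⟩ := lawEB H65.rootA ((k : ℝ) / N) G hG hodd hGc hlaw
  have hN := E.hN
  have hN0 : (0 : ℝ) < N := by exact_mod_cast hN
  by_contra hcon
  push Not at hcon
  obtain ⟨c1, c2, c3⟩ := hcon
  have d1 : (k : ℝ) / N ≠ 0 := by
    refine div_ne_zero ?_ hN0.ne'
    exact_mod_cast c1
  have d2 : (k : ℝ) / N ≠ -3 / 2 := by
    intro h1
    rw [div_eq_div_iff hN0.ne' two_ne_zero] at h1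
    refine c2 ?_
    have : ((2 * k : ℤ) : ℝ) = ((-3 * N : ℤ) : ℝ) := by
      push_cast
      linarith
    exact_mod_cast this
  have d3 : -2 < (k : ℝ) / N := by
    rw [lt_div_iff₀ hN0]
    exact_mod_cast c3
  rcases lt_or_ge ((k : ℝ) / N) (-3 / 2) with h1 | h1
  · exact H24.pk3_of H990.pk1 _ f d3 h1 hf
  rcases eq_or_lt_of_le h1 with h1' | h1'
  · exact d2 h1'.symm
  rcases le_or_gt ((k : ℝ) / N) (-1) with h2 | h2
  · exact H24.pk2_of (fun σ f h1 h2 => H990.k1 σ h1 h2 f) _ f h1' h2 hf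
  · exact H990.pk1 _ f h2 d1 hf

/-- every finitely branched end reached by continuation gives the data `EndH` -/
theorem reach_end {h : ℝ → ℝ} {η : ℝ} (hη : 0 < η) (hs : SmoothTable h) (hc : Collar h η)
    {N : ℕ} {k : ℤ} {R : ℂ → ℂ} {ψ₀ ξ₀ : ℂ} {ε : ℝ} {ρ : ℂ → ℂ} (hN : 1 ≤ N) (hε : 0 < ε)
    (dR : DifferentiableOn ℂ R (ball 0 ε)) (R0 : ∀ ξ ∈ ball (0 : ℂ) ε, R ξ ≠ 0)
    (hξ : ξ₀ ∈ ball (0 : ℂ) ε) (hξ0 : ξ₀ ≠ 0) (hr : Reach h (ψ₀ + ξ₀ ^ N) ρ)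
    (he : ∀ᶠ ξ in 𝓝 ξ₀, ρ (ψ₀ + ξ ^ N) = ξ ^ k * R ξ) : EndH N k R ψ₀ ε := by
  refine ⟨hε, hN, dR, R0, ?_⟩
  have hG := reach_good hη hs hc hr
  have hd : ∀ ξ : ℂ, HasDerivAt (fun ξ : ℂ => ψ₀ + ξ ^ N) (N * ξ ^ (N - 1)) ξ := fun ξ =>
    (hasDerivAt_pow N ξ).const_add ψ₀
  have hd0 : ∀ ξ : ℂ, ξ ≠ 0 → (N : ℂ) * ξ ^ (N - 1) ≠ 0 := fun ξ h =>
    mul_ne_zero (by exact_mod_cast (show N ≠ 0 by omega)) (pow_ne_zero _ h)
  have h1 : GoodAt (fun ξ => ψ₀ + ξ ^ N) (fun ξ => ξ ^ k * R ξ) ξ₀ := by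
    intro ρ' h2
    refine H519.good_congr ?_ hG
    have h3 : AnalyticAt ℂ (fun ξ : ℂ => ψ₀ + ξ ^ N) ξ₀ := by fun_prop
    have hmap : map (fun ξ : ℂ => ψ₀ + ξ ^ N) (𝓝 ξ₀) = 𝓝 (ψ₀ + ξ₀ ^ N) := by
      refine h3.hasStrictDerivAt.map_nhds_eq ?_
      rw [(hd ξ₀).deriv]
      exact hd0 ξ₀ hξ0
    have h4 : ∀ᶠ z in 𝓝 (ψ₀ + ξ₀ ^ N), ρ z = ρ' z := by
      rw [← hmap, eventually_map]
      filter_upwards [h2, he] with ξ h5 h6
      rw [h5, h6]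
    exact h4
  have hU : IsOpen (ball (0 : ℂ) ε ∩ {0}ᶜ) := isOpen_ball.inter isOpen_compl_singleton
  have h2 := contGood H65.rootA (ball (0 : ℂ) ε ∩ {0}ᶜ) (fun ξ => ψ₀ + ξ ^ N)
    (fun ξ => ξ ^ k * R ξ) ξ₀ hU (H519.preconn_punct 0 ε) (by fun_prop) (by
      intro ξ hx
      have hx0 : ξ ≠ 0 := hx.2
      exact (((differentiableAt_zpow.2 (Or.inl hx0))).mul
        (dR.differentiableAt (isOpen_ball.mem_nhds hx.1))).differentiableWithinAt)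
    (by
      intro ξ hx
      have hx0 : ξ ≠ 0 := hx.2
      refine ⟨?_, mul_ne_zero (zpow_ne_zero k hx0) (R0 ξ hx.1)⟩
      rw [(hd ξ).deriv]
      exact hd0 ξ hx0)
    ⟨hξ, hξ0⟩ h1
  intro ξ hx hx0 ρ' h3
  exact h2 ξ ⟨hx, hx0⟩ ρ' h3

/-- the exponents at the finitely branched ends, continuation along arbitrary chains -/
theorem reach_branch {h : ℝ → ℝ} {η : ℝ} (hη : 0 < η) (hs : SmoothTable h) (hc : Collar h η)
    {N : ℕ} {k : ℤ} {R : ℂ → ℂ} {ψ₀ ξ₀ : ℂ} {ε : ℝ} {ρ : ℂ → ℂ} (hN : 1 ≤ N) (hε : 0 < ε)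
    (dR : DifferentiableOn ℂ R (ball 0 ε)) (R0 : ∀ ξ ∈ ball (0 : ℂ) ε, R ξ ≠ 0)
    (hξ : ξ₀ ∈ ball (0 : ℂ) ε) (hξ0 : ξ₀ ≠ 0) (hr : Reach h (ψ₀ + ξ₀ ^ N) ρ)
    (he : ∀ᶠ ξ in 𝓝 ξ₀, ρ (ψ₀ + ξ ^ N) = ξ ^ k * R ξ) :
    k = 0 ∨ 2 * k = -3 * N ∨ k ≤ -2 * N :=
  end_exponent (reach_end hη hs hc hN hε dR R0 hξ hξ0 hr he)

/-- no zero of the radius of curvature, continuation along arbitrary chains -/
theorem reach_ne {h : ℝ → ℝ} {η : ℝ} (hη : 0 < η) (hs : SmoothTable h) (hc : Collar h η)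
    {z : ℂ} {ρ σ : ℂ → ℂ} {D : Set ℂ} (hr : Reach h z ρ) (hD : IsOpen D) (hpre : IsPreconnected D)
    (hz : z ∈ D) (dσ : DifferentiableOn ℂ σ D) (he : σ =ᶠ[𝓝 z] ρ) : ∀ w ∈ D, σ w ≠ 0 := by
  intro z₀ hz₀ hzero
  have aσ : AnalyticOnNhd ℂ σ D := dσ.analyticOnNhd hD
  have hσz : σ z ≠ 0 := by
    rw [he.self_of_nhds]
    exact (reach_an hs hr).2
  have hnz : ∀ z ∈ D, ¬ ∀ᶠ w in 𝓝 z, σ w = 0 := by
    intro z' hz' h1
    exact hσz (aσ.eqOn_zero_of_preconnected_of_eventuallyEq_zero hpre hz' h1 hz)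
  have hiso : ∀ z ∈ D, ∀ᶠ w in 𝓝[≠] z, σ w ≠ 0 := by
    intro z' hz'
    rcases (aσ z' hz').eventually_eq_zero_or_eventually_ne_zero with h1 | h1
    · exact absurd h1 (hnz z' hz')
    · exact h1
  obtain ⟨m, R, hR, hR0, hRe⟩ :=
    ((aσ z₀ hz₀).exists_eventuallyEq_pow_smul_nonzero_iff).2 (hnz z₀ hz₀)
  have hm : m ≠ 0 := by
    rintro rfl
    have h1 := hRe.self_of_nhds
    simp only [pow_zero, one_smul] at h1
    exact hR0 (h1 ▸ hzero)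
  have hall : ∀ᶠ w in 𝓝 z₀, w ∈ D ∧ AnalyticAt ℂ R w ∧ R w ≠ 0 ∧ σ w = (w - z₀) ^ m • R w := by
    filter_upwards [hD.mem_nhds hz₀, hR.eventually_analyticAt, hR.continuousAt.eventually_ne hR0,
      hRe] with z h1 h2 h3 h4
    exact ⟨h1, h2, h3, h4⟩
  obtain ⟨ε, hε, hb⟩ := Metric.eventually_nhds_iff_ball.1 hall
  have hb' : ∀ ξ ∈ ball (0 : ℂ) ε, z₀ + ξ ∈ ball z₀ ε := by
    intro ξ hξ
    rw [mem_ball, dist_eq_norm, add_sub_cancel_left]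
    simpa using hξ
  set ξ₀ : ℂ := ((ε / 2 : ℝ) : ℂ) with hξ₀
  have hx1 : ξ₀ ∈ ball (0 : ℂ) ε := by
    rw [mem_ball_zero_iff, norm_real, Real.norm_eq_abs, abs_of_pos (by positivity)]
    linarith
  have hx0 : ξ₀ ≠ 0 := by
    rw [hξ₀]
    exact_mod_cast (by positivity : (ε / 2 : ℝ) ≠ 0)
  have hform : ∀ ξ ∈ ball (0 : ℂ) ε, σ (z₀ + ξ ^ 1) = ξ ^ (m : ℤ) * R (z₀ + ξ) := by
    intro ξ hξ
    obtain ⟨-, -, -, h4⟩ := hb _ (hb' ξ hξ)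
    rw [pow_one, h4, add_sub_cancel_left, smul_eq_mul, zpow_natCast]
  have hUopen : IsOpen {z | z ∈ D ∧ σ z ≠ 0} := by
    have : {z | z ∈ D ∧ σ z ≠ 0} = D ∩ σ ⁻¹' {0}ᶜ := rfl
    rw [this]
    exact dσ.continuousOn.isOpen_inter_preimage hD isOpen_compl_singleton
  have hreach : Reach h (z₀ + ξ₀ ^ 1) σ := by
    refine Reach.move z (z₀ + ξ₀ ^ 1) ρ σ {z | z ∈ D ∧ σ z ≠ 0} hr hUopen
      (H519.preconn_ne hD hpre hiso dσ.continuousOn) ⟨hz, hσz⟩ ?_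
      (dσ.mono fun w hw => hw.1) (fun w hw => hw.2) he
    refine ⟨?_, ?_⟩
    · rw [pow_one]
      exact (hb _ (hb' ξ₀ hx1)).1
    · rw [hform ξ₀ hx1]
      exact mul_ne_zero (zpow_ne_zero _ hx0) (hb _ (hb' ξ₀ hx1)).2.2.1
  have := reach_branch (k := (m : ℤ)) (R := fun ξ => R (z₀ + ξ)) hη hs hc le_rfl hε (by
      intro ξ hξ
      have h1 : DifferentiableAt ℂ R (z₀ + ξ) := (hb _ (hb' ξ hξ)).2.1.differentiableAt
      have h2 : DifferentiableAt ℂ (fun ξ : ℂ => R (z₀ + ξ)) ξ :=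
        DifferentiableAt.comp (g := R) (f := fun ξ : ℂ => z₀ + ξ) ξ h1 (by fun_prop)
      exact h2.differentiableWithinAt)
    (fun ξ hξ => (hb _ (hb' ξ hξ)).2.2.1) hx1 hx0 hreach (by
      filter_upwards [isOpen_ball.mem_nhds hx1] with ξ hξ
      exact hform ξ hξ)
  rcases this with h1 | h1 | h1
  · exact hm (by exact_mod_cast h1)
  · push_cast at h1
    omega
  · push_cast at h1
    omega

end Vale.Agent.P097.NZ
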