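import Vale.Agent.P097.H128.NZ.Defs
import Vale.Agent.P097.H407.Hol
import Vale.Agent.P097.H133.T6a

/-! # P097 / NZ: Taylor coefficients in the second variable -/

set_option linter.all false

open Complex Metric Filter Topology Set

namespace Vale.Agent.P097.NZ

/-- iterated derivative in the second variable -/
noncomputable def id2 (f : ℂ × ℂ → ℂ) (k : ℕ) (p : ℂ × ℂ) : ℂ :=
  iteratedDeriv k (fun δ : ℂ => f (p.1, δ)) p.2

theorem id2_zero (f : ℂ × ℂ → ℂ) : id2 f 0 = f := by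
  funext p
  simp [id2]

theorem id2_succ (f : ℂ × ℂ → ℂ) (k : ℕ) (p : ℂ × ℂ) :
    id2 f (k + 1) p = deriv (fun δ => id2 f k (p.1, δ)) p.2 := by
  simp only [id2, iteratedDeriv_succ]

theorem deriv_snd {g : ℂ × ℂ → ℂ} {p : ℂ × ℂ} (hg : DifferentiableAt ℂ g p) :
    deriv (fun δ => g (p.1, δ)) p.2 = fderiv ℂ g p (0, 1) := by
  have h1 : HasFDerivAt g (fderiv ℂ g p) (p.1, p.2) := hg.hasFDerivAt
  have h2 : HasDerivAt (fun δ : ℂ => ((p.1, δ) : ℂ × ℂ)) (0, 1) p.2 :=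
    (hasDerivAt_const p.2 p.1).prodMk (hasDerivAt_id p.2)
  exact (h1.comp_hasDerivAt p.2 h2).deriv

theorem analyticAt_id2 {f : ℂ × ℂ → ℂ} {p : ℂ × ℂ} (hf : AnalyticAt ℂ f p) (k : ℕ) :
    AnalyticAt ℂ (id2 f k) p := by
  induction k with
  | zero => rw [id2_zero]; exact hf
  | succ k ih =>
    have h1 : ∀ᶠ q in 𝓝 p, id2 f (k + 1) q = fderiv ℂ (id2 f k) q (0, 1) := by
      filter_upwards [ih.eventually_analyticAt] with q hq
      rw [id2_succ, deriv_snd hq.differentiableAt]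
    have h2 : AnalyticAt ℂ (fun q => fderiv ℂ (id2 f k) q (0, 1)) p :=
      ((ContinuousLinearMap.apply ℂ ℂ ((0 : ℂ), (1 : ℂ))).analyticAt _).comp ih.fderiv
    exact h2.congr (by filter_upwards [h1] with q hq; exact hq.symm)

theorem analyticAt_pair {f : ℂ × ℂ → ℂ} {z c : ℂ} (hf : AnalyticAt ℂ f (z, c)) :
    AnalyticAt ℂ (fun z' => f (z', c)) z := by
  have h1 : AnalyticAt ℂ (fun z' : ℂ => ((z', c) : ℂ × ℂ)) z := analyticAt_id.prod analyticAt_const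
  exact hf.comp_of_eq h1 rfl

theorem analyticAt_pair2 {f : ℂ × ℂ → ℂ} {z c : ℂ} (hf : AnalyticAt ℂ f (z, c)) :
    AnalyticAt ℂ (fun δ => f (z, δ)) c := by
  have h1 : AnalyticAt ℂ (fun δ : ℂ => ((z, δ) : ℂ × ℂ)) c := analyticAt_const.prod analyticAt_id
  exact hf.comp_of_eq h1 rfl

theorem analyticAt_tc {f : ℂ × ℂ → ℂ} {z : ℂ} (hf : AnalyticAt ℂ f (z, 0)) (k : ℕ) :
    AnalyticAt ℂ (tc f k) z := by
  have h1 : AnalyticAt ℂ (fun z' => id2 f k (z', 0)) z := analyticAt_pair (analyticAt_id2 hf k)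
  exact h1.div analyticAt_const (by simp [Nat.factorial_ne_zero])

theorem eventually_axis {P : ℂ × ℂ → Prop} {z : ℂ} (h : ∀ᶠ p in 𝓝 ((z, 0) : ℂ × ℂ), P p) :
    ∀ᶠ z' in 𝓝 z, P (z', 0) := by
  have hc : Tendsto (fun z' : ℂ => ((z', 0) : ℂ × ℂ)) (𝓝 z) (𝓝 (z, 0)) := by
    have : Continuous (fun z' : ℂ => ((z', 0) : ℂ × ℂ)) := by fun_prop
    exact this.tendsto z
  exact hc.eventually h

theorem eventually_analyticAt_tc {f : ℂ × ℂ → ℂ} {z : ℂ} (hf : AnalyticAt ℂ f (z, 0)) :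
    ∀ᶠ z' in 𝓝 z, ∀ k : ℕ, AnalyticAt ℂ (tc f k) z' := by
  filter_upwards [eventually_axis hf.eventually_analyticAt] with z' hz' k
  exact analyticAt_tc hz' k

/-- polydisc neighbourhoods -/
theorem exists_polydisc {P : ℂ × ℂ → Prop} {z c : ℂ} (h : ∀ᶠ p in 𝓝 ((z, c) : ℂ × ℂ), P p) :
    ∃ r > 0, ∀ z' ∈ ball z r, ∀ δ ∈ ball c r, P (z', δ) := by
  obtain ⟨r, hr, h1⟩ := Metric.eventually_nhds_iff_ball.1 h
  refine ⟨r, hr, fun z' hz' δ hδ => h1 (z', δ) ?_⟩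
  rw [← ball_prod_same]
  exact ⟨hz', hδ⟩

theorem eventually_of_polydisc {P : ℂ × ℂ → Prop} {z c : ℂ} {r s : ℝ} (hr : 0 < r) (hs : 0 < s)
    (h : ∀ z' ∈ ball z r, ∀ δ ∈ ball c s, P (z', δ)) : ∀ᶠ p in 𝓝 ((z, c) : ℂ × ℂ), P p := by
  have : ball z r ×ˢ ball c s ∈ 𝓝 ((z, c) : ℂ × ℂ) :=
    prod_mem_nhds (ball_mem_nhds z hr) (ball_mem_nhds c hs)
  filter_upwards [this] with p hp
  exact h p.1 hp.1 p.2 hp.2

/-- Cauchy estimates and Taylor series in the second variable -/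
theorem tc_bound {f : ℂ × ℂ → ℂ} {z : ℂ} (hf : AnalyticAt ℂ f (z, 0)) :
    ∃ C B r : ℝ, 0 < B ∧ 0 < r ∧ r * B ≤ 1 ∧
      ∀ z' ∈ ball z r, (∀ k : ℕ, ‖tc f k z'‖ ≤ C * B ^ k) ∧
        ∀ δ ∈ ball (0 : ℂ) r, HasSum (fun k : ℕ => tc f k z' * δ ^ k) (f (z', δ)) := by
  have h1 : ∀ᶠ p in 𝓝 ((z, 0) : ℂ × ℂ), AnalyticAt ℂ f p ∧ ‖f p‖ < ‖f (z, 0)‖ + 1 := by
    filter_upwards [hf.eventually_analyticAt,
      hf.continuousAt.norm.eventually_lt_const (lt_add_one _)] with p h1 h2 using ⟨h1, h2⟩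
  obtain ⟨r, hr, h2⟩ := exists_polydisc h1
  have hd : ∀ z' ∈ ball z r, DifferentiableOn ℂ (fun δ => f (z', δ)) (ball 0 r) := by
    intro z' hz' δ hδ
    exact (analyticAt_pair2 (h2 z' hz' δ hδ).1).differentiableAt.differentiableWithinAt
  refine ⟨‖f (z, 0)‖ + 1, 2 / r, r / 2, by positivity, by positivity, ?_, ?_⟩
  · field_simp; norm_num
  intro z' hz'
  have hz'' : z' ∈ ball z r := ball_subset_ball (by linarith) hz'
  constructor
  · intro k
    have h3 : ‖iteratedDeriv k (fun δ => f (z', δ)) 0‖ ≤ k.factorial * (‖f (z, 0)‖ + 1) / (r / 2) ^ k := by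
      apply Complex.norm_iteratedDeriv_le_of_forall_mem_sphere_norm_le k (by positivity)
      · exact ((hd z' hz'').mono (closedBall_subset_ball (by linarith))).diffContOnCl_ball le_rfl
      · intro δ hδ
        have : δ ∈ ball (0 : ℂ) r := by
          rw [mem_sphere_zero_iff_norm] at hδ
          rw [mem_ball_zero_iff, hδ]; linarith
        exact (h2 z' hz'' δ this).2.le
    rw [tc, norm_div, Complex.norm_natCast]
    have hk : (0 : ℝ) < k.factorial := by exact_mod_cast k.factorial_pos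
    rw [div_le_iff₀ hk]
    refine h3.trans (le_of_eq ?_)
    rw [div_pow, div_pow]
    field_simp
  · intro δ hδ
    have hδ' : δ ∈ ball (0 : ℂ) r := ball_subset_ball (by linarith) hδ
    have h4 := Complex.hasSum_taylorSeries_on_ball (hd z' hz'') hδ'
    have h5 : (fun k : ℕ => tc f k z' * δ ^ k) =
        fun n : ℕ => ((n.factorial : ℂ))⁻¹ • (δ - 0) ^ n • iteratedDeriv n (fun δ => f (z', δ)) 0 := by
      funext k
      rw [tc, sub_zero, smul_eq_mul, smul_eq_mul]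
      ring
    rw [h5]
    exact h4

theorem geoBd_tc {f : ℂ × ℂ → ℂ} {z : ℂ} (hf : AnalyticAt ℂ f (z, 0)) : GeoBd (tc f) z := by
  obtain ⟨C, B, r, hB, hr, -, h⟩ := tc_bound hf
  exact ⟨C, B, r, hB, hr, fun z' hz' k => (h z' hz').1 k⟩

theorem Sm_tc {f : ℂ × ℂ → ℂ} {z : ℂ} (hf : AnalyticAt ℂ f (z, 0)) :
    ∀ᶠ p in 𝓝 ((z, 0) : ℂ × ℂ), Sm (tc f) p = f p := by
  obtain ⟨C, B, r, hB, hr, -, h⟩ := tc_bound hf
  refine eventually_of_polydisc hr hr fun z' hz' δ hδ => ?_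
  exact ((h z' hz').2 δ hδ).tsum_eq

/-- the sum of a series with geometrically bounded coefficients -/
theorem hasSum_Sm {u : ℕ → ℂ} {C B : ℝ} (hB : 0 < B) (hu : ∀ k, ‖u k‖ ≤ C * B ^ k) {δ : ℂ}
    (hδ : ‖δ‖ < 1 / (2 * B)) :
    Summable (fun k => u k * δ ^ k) ∧ ∀ s : Finset ℕ, ‖∑ k ∈ s, u k * δ ^ k‖ ≤ 2 * C := by
  have hC : 0 ≤ C := by
    have := (norm_nonneg _).trans (hu 0)
    simpa using this
  have hδ2 : B * ‖δ‖ ≤ 1 / 2 := by
    have h2 : B * ‖δ‖ < B * (1 / (2 * B)) := mul_lt_mul_of_pos_left hδ hB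
    have h3 : B * (1 / (2 * B)) = 1 / 2 := by field_simp
    linarith
  have hterm : ∀ k, ‖u k * δ ^ k‖ ≤ C * (1 / 2) ^ k := by
    intro k
    rw [norm_mul, norm_pow]
    calc ‖u k‖ * ‖δ‖ ^ k ≤ C * B ^ k * ‖δ‖ ^ k := by gcongr; exact hu k
      _ = C * (B * ‖δ‖) ^ k := by rw [mul_pow]; ring
      _ ≤ C * (1 / 2) ^ k := by gcongr
  have hs : Summable (fun k : ℕ => C * (1 / 2 : ℝ) ^ k) :=
    (summable_geometric_of_lt_one (by norm_num) (by norm_num)).mul_left C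
  refine ⟨Summable.of_norm_bounded hs hterm, fun s => ?_⟩
  calc ‖∑ k ∈ s, u k * δ ^ k‖ ≤ ∑ k ∈ s, ‖u k * δ ^ k‖ := norm_sum_le _ _
    _ ≤ ∑ k ∈ s, C * (1 / 2) ^ k := Finset.sum_le_sum fun k _ => hterm k
    _ ≤ ∑' k : ℕ, C * (1 / 2) ^ k := hs.sum_le_tsum s fun k _ => by positivity
    _ = 2 * C := by rw [tsum_mul_left, tsum_geometric_two]; ring

theorem differentiableOn_Sm {u : ℕ → ℂ → ℂ} {z : ℂ} {C B r : ℝ} (hB : 0 < B) (hr : 0 < r)
    (hu : ∀ z' ∈ ball z r, ∀ k, ‖u k z'‖ ≤ C * B ^ k)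
    (hd : ∀ k, DifferentiableOn ℂ (u k) (ball z r)) :
    DifferentiableOn ℂ (Sm u) (ball z r ×ˢ ball 0 (1 / (2 * B))) := by
  have hC : 0 ≤ C := by
    have := (norm_nonneg _).trans (hu z (mem_ball_self hr) 0)
    simpa using this
  have hopen : IsOpen (ball z r ×ˢ ball (0 : ℂ) (1 / (2 * B))) := isOpen_ball.prod isOpen_ball
  intro p hp
  apply DifferentiableAt.differentiableWithinAt
  obtain ⟨s, hs, hsub⟩ := Metric.isOpen_iff.1 hopen p hp
  refine H133.lim_diff (𝒰 := hyperfilter ℕ)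
    (F := fun n q => ∑ k ∈ Finset.range n, u k q.1 * q.2 ^ k) (M := 2 * C + 1) hs
    (by positivity) ?_ ?_
  · refine Filter.Eventually.of_forall fun n => ⟨?_, ?_⟩
    · refine DifferentiableOn.fun_sum fun k _ => ?_
      refine DifferentiableOn.mul ?_ (by fun_prop)
      exact (hd k).comp differentiable_fst.differentiableOn fun q hq => (hsub hq).1
    · intro q hq
      have h1 := hsub hq
      have := (hasSum_Sm (u := fun k => u k q.1) hB (hu q.1 h1.1)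
        (by simpa [mem_ball_zero_iff] using h1.2)).2 (Finset.range n)
      linarith
  · intro q hq
    have h1 := hsub hq
    have := (hasSum_Sm (u := fun k => u k q.1) hB (hu q.1 h1.1)
      (by simpa [mem_ball_zero_iff] using h1.2)).1.hasSum.tendsto_sum_nat
    refine this.mono_left ?_
    rw [← Nat.cofinite_eq_atTop]
    exact hyperfilter_le_cofinite

theorem analyticAt_Sm {u : ℕ → ℂ → ℂ} {z : ℂ} (hh : ∀ᶠ z' in 𝓝 z, ∀ k : ℕ, AnalyticAt ℂ (u k) z')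
    (hb : GeoBd u z) : AnalyticAt ℂ (Sm u) (z, 0) := by
  obtain ⟨C, B, r, hB, hr, hu⟩ := hb
  obtain ⟨s, hs, hs'⟩ := Metric.eventually_nhds_iff_ball.1 hh
  set t := min r s
  have ht : 0 < t := lt_min hr hs
  have h1 := differentiableOn_Sm (u := u) (z := z) (r := t) hB ht
    (fun z' hz' => hu z' (ball_subset_ball (min_le_left _ _) hz'))
    (fun k z' hz' => (hs' z' (ball_subset_ball (min_le_right _ _) hz') k).differentiableAt.differentiableWithinAt)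
  refine Hol.analyticAt_of_differentiableOn (isOpen_ball.prod isOpen_ball) h1 ?_
  exact ⟨mem_ball_self ht, mem_ball_self (by positivity)⟩

/-- the Taylor coefficients of a convergent series -/
theorem tc_Sm {u : ℕ → ℂ → ℂ} {z' : ℂ} {C B : ℝ} (hB : 0 < B) (hu : ∀ k, ‖u k z'‖ ≤ C * B ^ k)
    (k : ℕ) : tc (Sm u) k z' = u k z' := by
  set v : ℕ → ℂ := fun k => u k z' with hv
  set p := FormalMultilinearSeries.ofScalars ℂ v with hp
  have hrad : 0 < p.radius := by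
    set R : NNReal := Real.toNNReal (1 / (2 * B)) with hR
    have hRv : (R : ℝ) = 1 / (2 * B) := Real.coe_toNNReal _ (by positivity)
    have h1 : (R : ENNReal) ≤ p.radius := by
      refine FormalMultilinearSeries.le_radius_of_bound p C fun n => ?_
      have h2 : ‖p n‖ ≤ ‖v n‖ := by
        rw [hp, FormalMultilinearSeries.ofScalars_norm]
      have hC : 0 ≤ C := by
        have := (norm_nonneg _).trans (hu 0)
        simpa using this
      rw [hRv]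
      calc ‖p n‖ * (1 / (2 * B)) ^ n ≤ C * B ^ n * (1 / (2 * B)) ^ n := by
            gcongr
            exact h2.trans (hu n)
        _ = C * (1 / 2) ^ n := by
            rw [mul_assoc, ← mul_pow]
            congr 2
            field_simp
        _ ≤ C * 1 := by
            gcongr
            exact pow_le_one₀ (by norm_num) (by norm_num)
        _ = C := mul_one C
    refine lt_of_lt_of_le ?_ h1
    have h3 : (0 : ℝ) < R := by rw [hRv]; positivity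
    have h4 : 0 < R := by exact_mod_cast h3
    exact_mod_cast h4
  have h1 := (p.hasFPowerSeriesOnBall hrad).hasFPowerSeriesAt
  have h2 : p.sum = fun δ => Sm u (z', δ) := by
    funext δ
    have := FormalMultilinearSeries.ofScalars_sum_eq (E := ℂ) v δ
    rw [FormalMultilinearSeries.ofScalarsSum] at this
    rw [hp, this]
    rfl
  rw [h2] at h1
  have h3 := h1.analyticAt.hasFPowerSeriesAt
  have h4 := h1.eq_formalMultilinearSeries h3
  have h5 := congrArg (fun q : FormalMultilinearSeries ℂ ℂ ℂ => q.coeff k) h4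
  simp only [hp, FormalMultilinearSeries.coeff_ofScalars] at h5
  rw [tc, ← h5]

theorem tc_Sm_of_geoBd {u : ℕ → ℂ → ℂ} {z : ℂ} (hb : GeoBd u z) :
    ∀ᶠ z' in 𝓝 z, ∀ k, tc (Sm u) k z' = u k z' := by
  obtain ⟨C, B, r, hB, hr, hu⟩ := hb
  filter_upwards [ball_mem_nhds z hr] with z' hz' k
  exact tc_Sm hB (hu z' hz') k

theorem tc_congr {f g : ℂ × ℂ → ℂ} {z : ℂ} (h : ∀ᶠ p in 𝓝 ((z, 0) : ℂ × ℂ), f p = g p) :
    ∀ᶠ z' in 𝓝 z, ∀ k, tc f k z' = tc g k z' := by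
  obtain ⟨r, hr, h1⟩ := exists_polydisc h
  filter_upwards [ball_mem_nhds z hr] with z' hz' k
  have h2 : (fun δ => f (z', δ)) =ᶠ[𝓝 0] fun δ => g (z', δ) := by
    filter_upwards [ball_mem_nhds (0 : ℂ) hr] with δ hδ
    exact h1 z' hz' δ hδ
  rw [tc, tc, h2.iteratedDeriv_eq k]

theorem GeoBd.congr {u v : ℕ → ℂ → ℂ} {z : ℂ} (hu : GeoBd u z)
    (h : ∀ᶠ z' in 𝓝 z, ∀ k, u k z' = v k z') : GeoBd v z := by
  obtain ⟨C, B, r, hB, hr, hb⟩ := hu
  obtain ⟨s, hs, hs'⟩ := Metric.eventually_nhds_iff_ball.1 h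
  refine ⟨C, B, min r s, hB, lt_min hr hs, fun z' hz' k => ?_⟩
  rw [← hs' z' (ball_subset_ball (min_le_right _ _) hz') k]
  exact hb z' (ball_subset_ball (min_le_left _ _) hz') k

theorem Sm_congr {u v : ℕ → ℂ → ℂ} {z : ℂ} (h : ∀ᶠ z' in 𝓝 z, ∀ k, u k z' = v k z') :
    ∀ᶠ p in 𝓝 ((z, 0) : ℂ × ℂ), Sm u p = Sm v p := by
  obtain ⟨s, hs, hs'⟩ := Metric.eventually_nhds_iff_ball.1 h
  refine eventually_of_polydisc hs (zero_lt_one) fun z' hz' δ _ => ?_
  simp only [Sm]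
  congr 1
  funext k
  rw [hs' z' hz' k]

/-- a good point from an invariant analytic function -/
theorem good_of_analytic {u : ℕ → ℂ → ℂ} {S : ℂ × ℂ → ℂ × ℂ} {F : ℂ × ℂ → ℂ} {z : ℂ}
    (hu : ∀ᶠ z' in 𝓝 z, ∀ k : ℕ, AnalyticAt ℂ (u k) z') (hF : AnalyticAt ℂ F (z, 0))
    (hc : ∀ᶠ z' in 𝓝 z, ∀ k, tc F k z' = u k z')
    (hS : Tendsto S (𝓝 ((z, 0) : ℂ × ℂ)) (𝓝 (z, 0)))
    (hi : ∀ᶠ p in 𝓝 ((z, 0) : ℂ × ℂ), F (S p) = F p)
    (ho : ∀ᶠ z' in 𝓝 z, ∀ k : ℕ, Even k → u k z' = 0) : Good u S z := by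
  refine ⟨hu, (geoBd_tc hF).congr hc, ?_, ho⟩
  have h1 : ∀ᶠ p in 𝓝 ((z, 0) : ℂ × ℂ), Sm u p = F p := by
    filter_upwards [Sm_congr hc, Sm_tc hF] with p h1 h2
    rw [← h1, h2]
  filter_upwards [h1, hS.eventually h1, hi] with p h2 h3 h4
  rw [h2, h3, h4]

end Vale.Agent.P097.NZ
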